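import Crest.Agent.R192.CW.Defs

/-!
R192/CW/Basic: calculus for block CW.  Part a: smoothness and the rules for `gr`.  Part b: the special functions.
Statements FROZEN (owner helper62).
-/

set_option autoImplicit false

open MeasureTheory Complex Filter Topology
open scoped ContDiff

noncomputable section

namespace Crest.Agent.R192.CW
variable {N M n : ℕ}

/-! ### part a -/

/-- `s ≤ 1/64`: `st = 0` (`Real.smoothTransition.zero_of_nonpos`); otherwise a convex combination of `s` and `1` -/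
theorem ps_pos (s : ℝ) : 0 < ps s := by
  have h0 := Real.smoothTransition.nonneg (64 * s - 1)
  have h1 := Real.smoothTransition.le_one (64 * s - 1)
  unfold ps st
  rcases le_or_gt (64 * s - 1) 0 with h | h
  · rw [Real.smoothTransition.zero_of_nonpos h]; norm_num
  · have hs : 0 < s := by linarith
    rcases le_total s 1 with h2 | h2 <;> nlinarith

theorem ps_eq {s : ℝ} (h : 1 / 32 ≤ s) : ps s = s := by
  unfold ps st
  rw [Real.smoothTransition.one_of_one_le (by linarith)]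
  ring

theorem iv_eq {s : ℝ} (h : 1 / 32 ≤ s) : iv s = s⁻¹ := by
  rw [iv, ps_eq h]

theorem ph_eq {z : ℂ} (h : 1 / 32 ≤ z.re) : ph z = z⁻¹ := by
  rw [ph, ps_eq h, Complex.re_add_im]

theorem basa1_ps : ContDiff ℝ ∞ ps := by
  have h : ContDiff ℝ ∞ fun s : ℝ => st (64 * s - 1) :=
    Real.smoothTransition.contDiff.comp (by fun_prop)
  exact (h.mul contDiff_id).add (contDiff_const.sub h)

theorem basa1_ofReal {E : Type*} [NormedAddCommGroup E] [NormedSpace ℝ E] {f : E → ℝ}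
    (hf : ContDiff ℝ ∞ f) : ContDiff ℝ ∞ fun x => (f x : ℂ) := Complex.ofRealCLM.contDiff.comp hf

theorem contDiff_iv : ContDiff ℝ ∞ iv := by
  exact basa1_ps.inv fun s => (ps_pos s).ne'

/-- `ContDiff.inv`, `Complex.ofRealCLM.contDiff`, `Complex.reCLM.contDiff`; the real part of the denominator is positive -/
theorem contDiff_ph : ContDiff ℝ ∞ ph := by
  refine ContDiff.inv ((basa1_ofReal (basa1_ps.comp Complex.reCLM.contDiff)).add
    ((basa1_ofReal Complex.imCLM.contDiff).mul contDiff_const)) fun z h => ?_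
  have h1 := congrArg Complex.re h
  simp at h1
  exact (ps_pos _).ne' h1

theorem contDiff_uS : ContDiff ℝ ∞ (uS : (Fin N → ℝ) → Fin N → ℝ) := by
  refine contDiff_pi.2 fun l => ?_
  exact ContDiff.mul (by fun_prop) (contDiff_iv.comp (by fun_prop))

theorem contDiff_uC (l : Fin N) : ContDiff ℝ ∞ (uC l) := by
  exact basa1_ofReal (contDiff_pi.1 contDiff_uS l)

theorem contDiff_ta (j : Fin N) : ContDiff ℝ ∞ (ta j) := by
  exact basa1_ofReal (ContDiff.mul (by fun_prop) (contDiff_iv.comp (by fun_prop)))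

theorem contDiff_hC : ContDiff ℝ ∞ (hC N) := by
  exact basa1_ofReal (Real.smoothTransition.contDiff.comp (by fun_prop))

theorem Sm.An {β : F1 N} (h : Sm β) : Sm (An β) := by
  intro l
  exact (h l).mul (contDiff_ph.comp (ContDiff.sum fun j _ => h j))

theorem Sm.Au {β : F1 N} (h : Sm β) (l : Fin N) : ContDiff ℝ ∞ (Au β l) := by
  exact (h.An l).comp contDiff_uS

theorem contDiff_pd {f : Fn N} (hf : ContDiff ℝ ∞ f) (i : Fin N) : ContDiff ℝ ∞ (pd i f) := by
  exact (hf.fderiv_right (m := ∞) le_rfl).clm_apply contDiff_const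

theorem continuous_gr {f : Fn N} (hf : ContDiff ℝ ∞ f) : Continuous (gr f) := by
  exact continuous_pi fun i => (contDiff_pd hf i).continuous

theorem Sm.continuous_Wf {β : F1 N} (h : Sm β) : Continuous (Wf β) := by
  exact continuous_finsetSum _ fun l _ => (h.Au l).continuous.smul (continuous_gr (contDiff_uC l))

/-- `ContDiffAt.isSymmSndFDerivAt` -/
theorem pd_comm {f : Fn N} (hf : ContDiff ℝ ∞ f) (i j : Fin N) (t : Fin N → ℝ) :
    pd i (pd j f) t = pd j (pd i f) t := by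
  have hd : DifferentiableAt ℝ (fderiv ℝ f) t :=
    ((hf.fderiv_right (m := ∞) le_rfl).differentiable (by simp)) t
  have key : ∀ a b : Fin N, pd a (pd b f) t = fderiv ℝ (fderiv ℝ f) t (Pi.single a 1) (Pi.single b 1) := by
    intro a b
    unfold pd
    rw [fderiv_clm_apply hd (differentiableAt_const _)]
    simp
  rw [key, key]
  exact (hf.contDiffAt.isSymmSndFDerivAt (by
    rw [minSmoothness_of_isRCLikeNormedField]; exact WithTop.coe_le_coe.2 le_top)).eq _ _

theorem gr_congr {f f' : Fn N} {t : Fin N → ℝ} (h : f =ᶠ[𝓝 t] f') : gr f t = gr f' t := by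
  funext i
  simp only [gr, pd, h.fderiv_eq]

theorem gr_const (c : ℂ) (t : Fin N → ℝ) : gr (fun _ => c) t = 0 := by
  funext i
  simp [gr, pd]

theorem basa2_diff {E F : Type*} [NormedAddCommGroup E] [NormedSpace ℝ E] [NormedAddCommGroup F]
    [NormedSpace ℝ F] {f : E → F} (hf : ContDiff ℝ ∞ f) (t : E) : DifferentiableAt ℝ f t :=
  hf.differentiable (by simp) t

theorem gr_add {f f' : Fn N} (hf : ContDiff ℝ ∞ f) (hf' : ContDiff ℝ ∞ f') (t : Fin N → ℝ) :
    gr (fun s => f s + f' s) t = gr f t + gr f' t := by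
  funext i
  simp [gr, pd, fderiv_fun_add (basa2_diff hf t) (basa2_diff hf' t)]

theorem gr_sub {f f' : Fn N} (hf : ContDiff ℝ ∞ f) (hf' : ContDiff ℝ ∞ f') (t : Fin N → ℝ) :
    gr (fun s => f s - f' s) t = gr f t - gr f' t := by
  funext i
  simp [gr, pd, fderiv_fun_sub (basa2_diff hf t) (basa2_diff hf' t)]

theorem gr_add_const (f : Fn N) (c : ℂ) (t : Fin N → ℝ) : gr (fun s => f s + c) t = gr f t := by
  funext i
  simp [gr, pd, fderiv_add_const]

theorem gr_sum {ι : Type*} (S : Finset ι) {f : ι → Fn N} (hf : ∀ i, ContDiff ℝ ∞ (f i)) (t : Fin N → ℝ) :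
    gr (fun s => ∑ i ∈ S, f i s) t = ∑ i ∈ S, gr (f i) t := by
  funext j
  simp [gr, pd, fderiv_fun_sum fun i (_ : i ∈ S) => basa2_diff (hf i) t]

theorem gr_mul {f f' : Fn N} (hf : ContDiff ℝ ∞ f) (hf' : ContDiff ℝ ∞ f') (t : Fin N → ℝ) :
    gr (fun s => f s * f' s) t = f t • gr f' t + f' t • gr f t := by
  funext i
  simp [gr, pd, fderiv_fun_mul (basa2_diff hf t) (basa2_diff hf' t)]

/-- a derivative in terms of the partial derivatives (`pi_eq_sum_univ'`) -/
theorem fderiv_eq_sum_pd (f : Fn N) (t y : Fin N → ℝ) : fderiv ℝ f t y = ∑ i, (y i : ℂ) * pd i f t := by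
  conv_lhs => rw [pi_eq_sum_univ' y]
  rw [map_sum]
  refine Finset.sum_congr rfl fun i _ => ?_
  rw [map_smul, Complex.real_smul]
  rfl

/-- chain rule -/
theorem gr_comp {f : Fn M} (hf : ContDiff ℝ ∞ f) {u : (Fin N → ℝ) → Fin M → ℝ} (hu : ContDiff ℝ ∞ u)
    (t : Fin N → ℝ) : gr (fun s => f (u s)) t = ∑ i, pd i f (u t) • gr (fun s => (u s i : ℂ)) t := by
  funext j
  have h1 : fderiv ℝ (fun s => f (u s)) t = (fderiv ℝ f (u t)).comp (fderiv ℝ u t) :=
    fderiv_comp t (basa2_diff hf _) (basa2_diff hu t)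
  have h2 : ∀ i, fderiv ℝ (fun s => (u s i : ℂ)) t =
      Complex.ofRealCLM.comp ((ContinuousLinearMap.proj i).comp (fderiv ℝ u t)) := fun i =>
    (Complex.ofRealCLM.hasFDerivAt.comp t
      ((ContinuousLinearMap.proj (R := ℝ) (φ := fun _ : Fin M => ℝ) i).hasFDerivAt.comp t
        (basa2_diff hu t).hasFDerivAt)).fderiv
  simp only [gr, Finset.sum_apply, Pi.smul_apply, smul_eq_mul]
  rw [pd, h1, ContinuousLinearMap.comp_apply, fderiv_eq_sum_pd]
  refine Finset.sum_congr rfl fun i _ => ?_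
  rw [mul_comm]
  congr 1
  rw [pd, h2]
  rfl

/-! ### part b -/

theorem gr_hC (t : Fin N → ℝ) : gr (hC N) t = fun _ => ((deriv st (∑ i, t i - 1) : ℝ) : ℂ) := by
  funext i
  have h1 : HasFDerivAt (fun t : Fin N → ℝ => ∑ i, t i - 1)
      (∑ i, ContinuousLinearMap.proj (R := ℝ) (φ := fun _ : Fin N => ℝ) i) t :=
    (HasFDerivAt.fun_sum fun i _ =>
      (ContinuousLinearMap.proj (R := ℝ) (φ := fun _ : Fin N => ℝ) i).hasFDerivAt).sub_const 1
  have h2 : HasDerivAt st (deriv st (∑ i, t i - 1)) (∑ i, t i - 1) :=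
    ((Real.smoothTransition.contDiff (n := 1)).differentiable one_ne_zero _).hasDerivAt
  have h3 := (Complex.ofRealCLM.hasFDerivAt.comp t (h2.comp_hasFDerivAt t h1)).fderiv
  have h4 : fderiv ℝ (hC N) t = _ := h3
  simp only [gr, pd, h4]
  simp [Finset.sum_apply, Pi.single_apply]

/-- `st` is locally constant outside `[0,1]` (see the proof of `exists_Th`) -/
theorem gr_hC_eq_zero {t : Fin N → ℝ} (h : ∑ i, t i < 1 ∨ 2 < ∑ i, t i) : gr (hC N) t = 0 := by
  rw [gr_hC]
  funext i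
  have h0 : deriv st (∑ i, t i - 1) = 0 := by
    rcases h with h | h
    · have : st =ᶠ[𝓝 (∑ i, t i - 1)] fun _ => 0 :=
        (gt_mem_nhds (show ∑ i, t i - 1 < 0 by linarith)).mono fun y hy =>
          Real.smoothTransition.zero_of_nonpos (le_of_lt hy)
      rw [this.deriv_eq, deriv_const]
    · have : st =ᶠ[𝓝 (∑ i, t i - 1)] fun _ => 1 :=
        (lt_mem_nhds (show 1 < ∑ i, t i - 1 by linarith)).mono fun y hy =>
          Real.smoothTransition.one_of_one_le (le_of_lt hy)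
      rw [this.deriv_eq, deriv_const]
  simp [h0]

theorem mem_csh_or {t : Fin N → ℝ} (ht : t ∈ box N) : t ∈ csh N ∨ gr (hC N) t = 0 := by
  by_cases h : ∑ i, t i < 1 ∨ 2 < ∑ i, t i
  · exact Or.inr (gr_hC_eq_zero h)
  · push Not at h
    exact Or.inl ⟨ht.1, h.1, h.2⟩

theorem measurableSet_box : MeasurableSet (box N) := measurableSet_Icc

theorem isCompact_box : IsCompact (box N) := isCompact_Icc

theorem io_zero : io (0 : Fin N → ℂ) = 0 := map_zero _

theorem eventually_sum_ge {t : Fin N → ℝ} (ht : 1 ≤ ∑ i, t i) : ∀ᶠ s in 𝓝 t, 1 / 32 ≤ ∑ i, s i := by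
  have hc : Continuous fun s : Fin N → ℝ => ∑ i, s i := by fun_prop
  exact (hc.continuousAt.eventually (lt_mem_nhds (show 1 / 32 < ∑ i, t i by linarith))).mono fun _ h => h.le

theorem uS_eq_uu {t : Fin N → ℝ} (h : 1 / 32 ≤ ∑ i, t i) : uS t = uu t := by
  funext l
  rw [uS, uu, iv_eq h, div_eq_mul_inv]

theorem uS_zero (t : Fin (n + 1) → ℝ) : uS t 0 = 0 := by
  simp [uS]

theorem ord_uS {t : Fin (n + 1) → ℝ} (ht : t ∈ csh (n + 1)) : Ord (uS t) := by
  obtain ⟨h0, h1, -⟩ := ht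
  have hi : iv (∑ j, t j) = (∑ j, t j)⁻¹ := iv_eq (by linarith)
  have hp : 0 < ∑ j, t j := by linarith
  refine ⟨uS_zero t, fun a b hab => ?_, ?_⟩
  · unfold uS
    rw [hi]
    refine mul_le_mul_of_nonneg_right (Finset.sum_le_sum_of_subset_of_nonneg (fun j hj => ?_) fun j _ _ => h0 j)
      (by positivity)
    simp only [Finset.mem_filter, Finset.mem_univ, true_and] at hj ⊢
    exact hj.trans_le hab
  · unfold uS
    rw [hi, ← div_eq_mul_inv, div_le_one hp]
    exact Finset.sum_le_sum_of_subset_of_nonneg (Finset.filter_subset _ _) fun j _ _ => h0 j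

theorem sum_ta {t : Fin N → ℝ} (h : 1 / 32 ≤ ∑ i, t i) : ∑ j, ta j t = 1 := by
  have hp : 0 < ∑ j, t j := by linarith
  unfold ta
  rw [← Complex.ofReal_sum, ← Finset.sum_mul, iv_eq h, mul_inv_cancel₀ hp.ne', Complex.ofReal_one]

theorem basb2_iv {s : ℝ} (h : 1 ≤ s) : HasDerivAt iv (-(s ^ 2)⁻¹) s := by
  refine (hasDerivAt_inv (by linarith : s ≠ 0)).congr_of_eventuallyEq ?_
  exact (lt_mem_nhds (show (1 / 32 : ℝ) < s by linarith)).mono fun y hy => iv_eq hy.le

theorem basb2_gr (S : Finset (Fin N)) {t : Fin N → ℝ} (h : 1 ≤ ∑ i, t i) (i : Fin N) :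
    gr (fun s => (((∑ j ∈ S, s j) * iv (∑ j, s j) : ℝ) : ℂ)) t i =
      ((((if i ∈ S then 1 else 0) - (∑ j ∈ S, t j) / ∑ j, t j) / ∑ j, t j : ℝ) : ℂ) := by
  have hs : ∀ T : Finset (Fin N), HasFDerivAt (fun s : Fin N → ℝ => ∑ j ∈ T, s j)
      (∑ j ∈ T, ContinuousLinearMap.proj (R := ℝ) (φ := fun _ : Fin N => ℝ) j) t := fun T =>
    HasFDerivAt.fun_sum fun j _ => (ContinuousLinearMap.proj (R := ℝ) (φ := fun _ : Fin N => ℝ) j).hasFDerivAt
  have h1 := Complex.ofRealCLM.hasFDerivAt.comp t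
    ((hs S).mul ((basb2_iv h).comp_hasFDerivAt t (hs Finset.univ)))
  have h2 : fderiv ℝ (fun s : Fin N → ℝ => (((∑ j ∈ S, s j) * iv (∑ j, s j) : ℝ) : ℂ)) t = _ := h1.fderiv
  have h0 : (∑ j, t j) ≠ 0 := by linarith
  rw [gr, pd, h2]
  simp only [ContinuousLinearMap.comp_apply, Complex.ofRealCLM_apply, ContinuousLinearMap.add_apply,
    ContinuousLinearMap.smul_apply, ContinuousLinearMap.sum_apply, ContinuousLinearMap.proj_apply,
    smul_eq_mul, Function.comp_apply, Pi.single_apply, Finset.sum_ite_eq', Finset.mem_univ, if_true,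
    iv_eq (show 1 / 32 ≤ ∑ i, t i by linarith)]
  congr 1
  field_simp
  ring

theorem basb2_le {a b S : ℝ} (ha : 0 ≤ a) (ha' : a ≤ 1) (hb : 0 ≤ b) (hb' : b ≤ S) (hS : 1 ≤ S) :
    ‖(((a - b / S) / S : ℝ) : ℂ)‖ ≤ 1 := by
  have h0 : 0 < S := by linarith
  have h1 : 0 ≤ b / S := by positivity
  have h2 : b / S ≤ 1 := (div_le_one h0).2 hb'
  rw [Complex.norm_real, Real.norm_eq_abs, abs_div, abs_of_pos h0, div_le_one h0, abs_le]
  constructor <;> linarith

theorem gr_uC {t : Fin N → ℝ} (h : 1 ≤ ∑ i, t i) (l i : Fin N) :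
    gr (uC l) t i = ((((if i < l then 1 else 0) - uS t l) / ∑ j, t j : ℝ) : ℂ) := by
  have h1 := basb2_gr (Finset.univ.filter fun j => j < l) h i
  simp only [Finset.mem_filter, Finset.mem_univ, true_and] at h1
  rw [uS, iv_eq (show 1 / 32 ≤ ∑ i, t i by linarith), ← div_eq_mul_inv]
  exact h1

theorem gr_ta {t : Fin N → ℝ} (h : 1 ≤ ∑ i, t i) (j i : Fin N) :
    gr (ta j) t i = ((((if i = j then 1 else 0) - t j / ∑ l, t l) / ∑ l, t l : ℝ) : ℂ) := by
  have h1 := basb2_gr {j} h i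
  simp only [Finset.mem_singleton, Finset.sum_singleton] at h1
  exact h1

theorem norm_gr_uC_le {t : Fin N → ℝ} (ht : t ∈ csh N) (l i : Fin N) : ‖gr (uC l) t i‖ ≤ 1 := by
  obtain ⟨h0, h1, -⟩ := ht
  rw [gr_uC h1, uS, iv_eq (show 1 / 32 ≤ ∑ i, t i by linarith), ← div_eq_mul_inv]
  refine basb2_le (by split_ifs <;> norm_num) (by split_ifs <;> norm_num)
    (Finset.sum_nonneg fun j _ => h0 j) ?_ h1
  exact Finset.sum_le_sum_of_subset_of_nonneg (Finset.subset_univ _) fun j _ _ => h0 j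

theorem norm_gr_ta_le {t : Fin N → ℝ} (ht : t ∈ csh N) (j i : Fin N) : ‖gr (ta j) t i‖ ≤ 1 := by
  obtain ⟨h0, h1, -⟩ := ht
  rw [gr_ta h1]
  exact basb2_le (by split_ifs <;> norm_num) (by split_ifs <;> norm_num) (h0 j)
    (Finset.single_le_sum (fun j _ => h0 j) (Finset.mem_univ j)) h1

theorem norm_ta_le {t : Fin N → ℝ} (ht : t ∈ csh N) (j : Fin N) : ‖ta j t‖ ≤ 1 := by
  obtain ⟨h0, h1, -⟩ := ht
  have hp : 0 < ∑ i, t i := by linarith
  rw [ta, iv_eq (show 1 / 32 ≤ ∑ i, t i by linarith), ← div_eq_mul_inv, Complex.norm_real, Real.norm_eq_abs,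
    abs_of_nonneg (div_nonneg (h0 j) hp.le), div_le_one hp]
  exact Finset.single_le_sum (fun j _ => h0 j) (Finset.mem_univ j)

theorem Tr.An {β : F1 N} (h : Tr β) : Tr (An β) := by
  intro v s
  funext l
  simp only [CW.An, h v s]

/-- differentiate `s ↦ β (v + s) l` at `s = 0` -/
theorem Tr.sum_pd {β : F1 N} (h : Tr β) (hs : Sm β) (v : Fin N → ℝ) (l : Fin N) :
    ∑ i, pd i (fun w => β w l) v = 0 := by
  have h1 : HasDerivAt (fun s : ℝ => v + s • fun _ : Fin N => (1 : ℝ)) (fun _ => 1) 0 := by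
    simpa using ((hasDerivAt_id (0 : ℝ)).smul_const fun _ : Fin N => (1 : ℝ)).const_add v
  have h2 := (((hs l).differentiable (by simp)) _).hasFDerivAt.comp_hasDerivAt (0 : ℝ) h1
  have h3 : ((fun w => β w l) ∘ fun s : ℝ => v + s • fun _ : Fin N => (1 : ℝ)) = fun _ => β v l := by
    funext s
    have : (v + s • fun _ : Fin N => (1 : ℝ)) = fun i => v i + s := by
      funext i; simp
    simp only [Function.comp, this, h v s]
  rw [h3] at h2
  have h4 := h2.unique (hasDerivAt_const _ _)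
  rw [fderiv_eq_sum_pd] at h4
  simpa using h4

theorem eventually_re_ge {β : F1 N} (hs : Sm β) {v : Fin N → ℝ} (hv : 1 / 16 ≤ (∑ l, β v l).re) :
    ∀ᶠ w in 𝓝 v, 1 / 32 ≤ (∑ l, β w l).re := by
  have hc : Continuous fun w => (∑ l, β w l).re :=
    Complex.continuous_re.comp (continuous_finsetSum _ fun l _ => (hs l).continuous)
  exact (hc.continuousAt.eventually (lt_mem_nhds (show 1 / 32 < (∑ l, β v l).re by linarith))).mono
    fun _ h => h.le

theorem eventually_sum_An {β : F1 N} (hs : Sm β) {v : Fin N → ℝ} (hv : 1 / 16 ≤ (∑ l, β v l).re) :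
    ∀ᶠ w in 𝓝 v, ∑ l, An β w l = 1 := by
  refine (eventually_re_ge hs hv).mono fun w hw => ?_
  have h0 : ∑ l, β w l ≠ 0 := fun h => by
    rw [h] at hw
    norm_num at hw
  unfold An
  rw [← Finset.sum_mul, ph_eq hw, mul_inv_cancel₀ h0]

theorem eventually_sum_Au {β : F1 (n + 1)} (hs : Sm β) (hd : Dp β) {t : Fin (n + 1) → ℝ}
    (ht : t ∈ csh (n + 1)) : ∀ᶠ s in 𝓝 t, ∑ l, Au β l s = 1 := by
  exact (contDiff_uS.continuous.continuousAt (x := t)).eventually (eventually_sum_An hs (hd _ (ord_uS ht)))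

end Crest.Agent.R192.CW
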