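import Crest.Agent.R192.CW.Face

/-!
R192/CW/Bound: part a: the forms as pull-backs, crude bounds.  Part b: the sharp bound in top degree.
Statements FROZEN (owner helper62).
-/

set_option autoImplicit false

open MeasureTheory Complex Filter Topology
open scoped ContDiff

noncomputable section

namespace Crest.Agent.R192.CW
variable {N n : ℕ}

/-! ### part a -/

theorem lc_apply (r : Fin N → Fin N → ℂ) (c : Fin N → ℂ) : lc r c = ∑ l, c l • r l :=
  Fintype.linearCombination_apply ℂ r c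

theorem lc_single (r : Fin N → Fin N → ℂ) (l : Fin N) : lc r (Pi.single l 1) = r l := by
  rw [lc, Fintype.linearCombination_apply_single, one_smul]

theorem Wf_eq (β : F1 N) (t : Fin N → ℝ) : Wf β t = lc (fun l => gr (uC l) t) (An β (uS t)) :=
  (lc_apply _ _).symm

theorem map_lc_om (r : Fin N → Fin N → ℂ) (F : Matrix (Fin N) (Fin N) ℂ) :
    ExteriorAlgebra.map (lc r) (om F) = ∑ i, ∑ l, F i l • (io (r i) * io (r l)) := by
  have h : ∀ i, ExteriorAlgebra.map (lc r) (io (Pi.single i 1)) = io (r i) := fun i => by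
    rw [← lc_single r i]; exact ExteriorAlgebra.map_apply_ι _ _
  simp only [om, map_sum, map_smul, map_mul, h]

/-- `gr_comp` -/
theorem omp_eq {β : F1 N} (hβ : Sm β) (t : Fin N → ℝ) :
    omp β t = ExteriorAlgebra.map (lc fun l => gr (uC l) t) (om (dM (An β) (uS t))) := by
  rw [map_lc_om, Finset.sum_comm]
  refine Finset.sum_congr rfl fun l _ => ?_
  have h1 : gr (Au β l) t = ∑ i, dM (An β) (uS t) i l • gr (uC i) t := gr_comp (hβ.An l) contDiff_uS t
  have h2 : io (∑ i, dM (An β) (uS t) i l • gr (uC i) t) = ∑ i, dM (An β) (uS t) i l • io (gr (uC i) t) := by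
    simp only [io, map_sum, map_smul]
  rw [h1, h2, Finset.sum_mul]
  simp only [smul_mul_assoc]

/-- `om_vecMulVec`, `om_sum`, `om_smul` -/
theorem map_lc_om' (r : Fin N → Fin N → ℂ) (F : Matrix (Fin N) (Fin N) ℂ) :
    ExteriorAlgebra.map (lc r) (om F) = om (Matrix.of fun i j => ∑ a, ∑ b, F a b * (r a i * r b j)) := by
  have h : (Matrix.of fun i j => ∑ a, ∑ b, F a b * (r a i * r b j)) =
      ∑ a, ∑ b, F a b • Matrix.vecMulVec (r a) (r b) := by
    ext i j
    simp [Matrix.sum_apply, Matrix.vecMulVec_apply]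
  rw [map_lc_om, h]
  simp only [om_sum, om_smul, om_vecMulVec]

/-- near `v`, `An β w l = β w l * (∑ β w)⁻¹` (`eventually_re_ge`, `ph_eq`); or differentiate `An β w l * D w = β w l`
and solve -/
theorem dM_An {β : F1 N} (hβ : Sm β) {v : Fin N → ℝ} (hv : 1 / 16 ≤ (∑ l, β v l).re) (i l : Fin N) :
    dM (An β) v i l = (∑ j, β v j)⁻¹ * dM β v i l - (∑ j, β v j)⁻¹ ^ 2 * ((∑ j, dM β v i j) * β v l) := by
  have hD : ContDiff ℝ ∞ fun w => ∑ j, β w j := ContDiff.sum fun j _ => hβ j
  have hne : ∑ j, β v j ≠ 0 := fun h => by rw [h, zero_re] at hv; linarith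
  have hev : (fun w => An β w l * ∑ j, β w j) =ᶠ[𝓝 v] fun w => β w l :=
    (eventually_re_ge hβ hv).mono fun w hw => by
      have hw0 : ∑ j, β w j ≠ 0 := fun h => by rw [h, zero_re] at hw; linarith
      simp only [An, ph_eq hw]
      rw [mul_assoc, inv_mul_cancel₀ hw0, mul_one]
  have h1 := congrFun (gr_congr hev) i
  rw [gr_mul (hβ.An l) hD, gr_sum Finset.univ (f := fun j w => β w j) hβ] at h1
  simp only [Pi.add_apply, Pi.smul_apply, smul_eq_mul, Finset.sum_apply] at h1
  have h2 : An β v l = β v l * (∑ j, β v j)⁻¹ := by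
    simp only [An, ph_eq (show 1 / 32 ≤ (∑ j, β v j).re by linarith)]
  rw [h2] at h1
  change β v l * (∑ j, β v j)⁻¹ * (∑ j, dM β v i j) + (∑ j, β v j) * dM (An β) v i l = dM β v i l at h1
  rw [← h1]
  field_simp
  ring

theorem norm_inv_le {z : ℂ} (hz : 1 / 16 ≤ z.re) : ‖z⁻¹‖ ≤ 16 := by
  rw [norm_inv]
  have h1 : (1 / 16 : ℝ) ≤ ‖z‖ := hz.trans (Complex.re_le_norm z)
  rw [inv_le_comm₀ (by linarith) (by norm_num)]
  linarith

/-- On `csh`, `omp β t = om M'` with bounded entries: replace `dM (An β)` by half its antisymmetric part (`om_congr`),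
which is bounded by `dM_An` since `∑ j, dM β v i j = ∑ j, (dM β v i j - dM β v j i)` (`Tr.sum_pd`); then `map_lc_om'`,
`norm_gr_uC_le`. -/
theorem omp_bdd (n : ℕ) (K : ℝ) : ∃ C : ℝ, ∀ β : F1 (n + 1), Sm β → Tr β → Dp β → Bd K β →
    ∀ t ∈ csh (n + 1), (∀ i, ‖Wf β t i‖ ≤ C) ∧
      ∃ M' : Matrix (Fin (n + 1)) (Fin (n + 1)) ℂ, omp β t = om M' ∧ ∀ i j, ‖M' i j‖ ≤ C := by
  set K' := |K| with hK'
  have hK0 : 0 ≤ K' := abs_nonneg _
  set C₁ : ℝ := 16 * K' + 2 * (16 ^ 2 * ((n + 1) * K' * K')) with hC₁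
  have hC₁0 : 0 ≤ C₁ := by positivity
  refine ⟨(n + 1) * (K' * 16) + (n + 1) * ((n + 1) * C₁), fun β hs htr hd hb t ht => ?_⟩
  have hv := ord_uS ht
  have hD := hd _ hv
  obtain ⟨b1, b2⟩ := hb _ hv
  set v := uS t with hvdef
  have b1' : ∀ l, ‖β v l‖ ≤ K' := fun l => (b1 l).trans (le_abs_self _)
  have b2' : ∀ i l, ‖dM β v i l - dM β v l i‖ ≤ K' := fun i l => (b2 i l).trans (le_abs_self _)
  have hi := norm_inv_le hD
  have hsum : ∀ {f : Fin (n + 1) → ℂ} {c : ℝ}, (∀ j, ‖f j‖ ≤ c) → ‖∑ j, f j‖ ≤ (n + 1) * c := fun {f c} h => by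
    refine (norm_sum_le _ _).trans ((Finset.sum_le_card_nsmul _ _ c fun j _ => h j).trans (le_of_eq ?_))
    simp
  refine ⟨fun i => ?_, ?_⟩
  · refine le_trans ?_ (le_add_of_nonneg_right (by positivity))
    rw [Wf, Finset.sum_apply]
    refine hsum fun l => ?_
    have h2 : Au β l t = β v l * (∑ j, β v j)⁻¹ := by
      simp only [Au, An, ← hvdef, ph_eq (show 1 / 32 ≤ (∑ j, β v j).re by linarith)]
    rw [Pi.smul_apply, smul_eq_mul, h2, norm_mul, norm_mul]
    calc _ ≤ K' * 16 * 1 := by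
          gcongr
          · exact b1' l
          · exact norm_gr_uC_le ht l i
      _ = _ := mul_one _
  · set F := dM (An β) v with hF
    let F' : Matrix (Fin (n + 1)) (Fin (n + 1)) ℂ := Matrix.of fun i l => (F i l - F l i) / 2
    have hom : om F = om F' := om_congr fun i l => by simp only [F', Matrix.of_apply]; ring
    have hrow : ∀ i, ‖∑ j, dM β v i j‖ ≤ (n + 1) * K' := fun i => by
      have h0 : ∑ j, dM β v j i = 0 := htr.sum_pd hs v i
      have : ∑ j, dM β v i j = ∑ j, (dM β v i j - dM β v j i) := by rw [Finset.sum_sub_distrib, h0, sub_zero]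
      rw [this]; exact hsum fun j => b2' i j
    have hF' : ∀ i l, ‖F' i l‖ ≤ C₁ := fun i l => by
      have e : F i l - F l i = (∑ j, β v j)⁻¹ * (dM β v i l - dM β v l i) -
          (∑ j, β v j)⁻¹ ^ 2 * ((∑ j, dM β v i j) * β v l) + (∑ j, β v j)⁻¹ ^ 2 * ((∑ j, dM β v l j) * β v i) := by
        rw [hF, dM_An hs hD, dM_An hs hD]; ring
      have t1 : ‖(∑ j, β v j)⁻¹ * (dM β v i l - dM β v l i)‖ ≤ 16 * K' := by
        rw [norm_mul]; gcongr; exact b2' i l
      have t2 : ∀ i l, ‖(∑ j, β v j)⁻¹ ^ 2 * ((∑ j, dM β v i j) * β v l)‖ ≤ 16 ^ 2 * ((n + 1) * K' * K') :=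
        fun i l => by
          rw [norm_mul, norm_mul, norm_pow]; gcongr
          · exact hrow i
          · exact b1' l
      have t3 : ‖F i l - F l i‖ ≤ C₁ := by
        rw [e]
        refine (norm_add_le _ _).trans ((add_le_add (norm_sub_le _ _) le_rfl).trans ?_)
        linarith [t2 i l, t2 l i]
      simp only [F', Matrix.of_apply, norm_div]
      have : ‖(2 : ℂ)‖ = 2 := by simp
      rw [this]; linarith [norm_nonneg (F i l - F l i)]
    refine ⟨Matrix.of fun i j => ∑ a, ∑ b, F' a b * (gr (uC a) t i * gr (uC b) t j),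
      by rw [omp_eq hs, ← hvdef, ← hF, hom, map_lc_om'], fun i j => ?_⟩
    refine le_trans ?_ (le_add_of_nonneg_left (by positivity))
    refine hsum fun a => hsum fun b => ?_
    rw [norm_mul, norm_mul]
    calc _ ≤ C₁ * (1 * 1) := by
          gcongr
          · exact hF' a b
          · exact norm_gr_uC_le ht a i
          · exact norm_gr_uC_le ht b j
      _ = _ := by ring

/-- `norm_top_crude` with the lists `[gr hC t]`, `[gr hC t, w t]` and the constant `max C Th`; `mem_csh_or`,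
`norm_setIntegral_le_of_norm_le_const` -/
theorem crude (n k : ℕ) (K : ℝ) : ∃ C : ℝ, ∀ β : F1 (n + 1), Sm β → Tr β → Dp β → Bd K β →
    (∀ f : Fn (n + 1), (∀ t ∈ csh (n + 1), ‖f t‖ ≤ 1) → ‖I0 k f β‖ ≤ C) ∧
      ‖I1 k (Wf β) β‖ ≤ C ∧ ‖I1 k (gr (ta 0)) β‖ ≤ C := by
  obtain ⟨C, hCC⟩ := omp_bdd n K
  set C' : ℝ := max C Th with hC'
  have h1 : 1 ≤ C' := one_le_Th.trans (le_max_right _ _)
  have h0 : 0 ≤ C' := zero_le_one.trans h1
  set B : ℝ := (((n + 1 : ℕ) : ℝ) * C') ^ 2 * (((n + 1 : ℕ) : ℝ) ^ 2 * C') ^ k with hB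
  have hB0 : 0 ≤ B := by positivity
  have hfin : volume (box (n + 1)) < ⊤ := isCompact_box.measure_lt_top
  refine ⟨B * volume.real (box (n + 1)), fun β hs htr hd hb => ?_⟩
  have hh : ∀ t l, ‖gr (hC (n + 1)) t l‖ ≤ C' := fun t l => by
    rw [gr_hC, Complex.norm_real, Real.norm_eq_abs]
    exact (abs_deriv_st_le _).trans (le_max_right _ _)
  have hI1 : ∀ w : F1 (n + 1), (∀ t ∈ csh (n + 1), ∀ l, ‖w t l‖ ≤ C') → ‖I1 k w β‖ ≤ B * volume.real (box (n + 1)) :=
    fun w hw => norm_setIntegral_le_of_norm_le_const hfin fun t ht => by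
      rcases mem_csh_or ht with hcs | hz
      · obtain ⟨-, M, hM, hMb⟩ := hCC β hs htr hd hb t hcs
        have := norm_top_crude [gr (CW.hC (n + 1)) t, w t] M k h0 (by
          intro v hv l
          simp only [List.mem_cons, List.not_mem_nil, or_false] at hv
          rcases hv with rfl | rfl
          · exact hh t l
          · exact hw t hcs l) fun i l => (hMb i l).trans (le_max_left _ _)
        rw [hM, ← mul_assoc]
        simpa [hB] using this
      · rw [hz, io_zero, zero_mul, map_zero, norm_zero]; exact hB0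
  refine ⟨fun f hf => norm_setIntegral_le_of_norm_le_const hfin fun t ht => ?_,
    hI1 _ fun t ht l => ((hCC β hs htr hd hb t ht).1 l).trans (le_max_left _ _),
    hI1 _ fun t ht l => (norm_gr_ta_le ht 0 l).trans h1⟩
  rcases mem_csh_or ht with hcs | hz
  · obtain ⟨-, M, hM, hMb⟩ := hCC β hs htr hd hb t hcs
    have := norm_top_crude [gr (CW.hC (n + 1)) t] M k h0 (by
      intro v hv l
      simp only [List.mem_cons, List.not_mem_nil, or_false] at hv
      subst hv
      exact hh t l) fun i l => (hMb i l).trans (le_max_left _ _)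
    simp only [List.map_cons, List.map_nil, List.prod_cons, List.prod_nil, mul_one, List.length_cons,
      List.length_nil, zero_add, pow_one] at this
    rw [hM, norm_mul]
    have h2 : (1 : ℝ) ≤ ((n + 1 : ℕ) : ℝ) * C' :=
      one_le_mul_of_one_le_of_one_le (by exact_mod_cast Nat.le_add_left _ _) h1
    calc _ ≤ 1 * ((((n + 1 : ℕ) : ℝ) * C') * (((n + 1 : ℕ) : ℝ) ^ 2 * C') ^ k) := by
          gcongr
          exact hf t hcs
      _ ≤ B := by
          rw [one_mul, hB]; gcongr
          exact le_self_pow₀ h2 two_ne_zero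
  · rw [hz, io_zero, zero_mul, map_zero, mul_zero, norm_zero]; exact hB0

/-! ### part b -/

/-- a basic two-form does not see a common shift of the rows: expand with `map_lc_om`, the cross terms give
`∑ i, (∑ l, F i l - ∑ l, F l i) • (io (r i) * io c)` by `io_swap` -/
theorem map_lc_add_om (r : Fin N → Fin N → ℂ) (c : Fin N → ℂ) (F : Matrix (Fin N) (Fin N) ℂ)
    (hF : ∀ i, ∑ l, F i l = ∑ l, F l i) :
    ExteriorAlgebra.map (lc fun l => r l + c) (om F) = ExteriorAlgebra.map (lc r) (om F) := by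
  have hio : ∀ a b : Fin N → ℂ, io (a + b) = io a + io b := fun a b => map_add _ a b
  rw [map_lc_om, map_lc_om]
  simp only [hio, add_mul, mul_add, io_mul_self, add_zero, smul_add, Finset.sum_add_distrib]
  have h1 : ∑ i, ∑ l, F i l • (io c * io (r l)) = -∑ i, ∑ l, F i l • (io (r i) * io c) := by
    rw [Finset.sum_comm, ← Finset.sum_neg_distrib]
    refine Finset.sum_congr rfl fun i _ => ?_
    rw [← Finset.sum_smul, ← Finset.sum_smul, hF i, io_swap c, smul_neg]
  rw [h1]; abel

theorem det_lc (r : Fin N → Fin N → ℂ) : LinearMap.det (lc r) = (Matrix.of r).det := by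
  have : lc r = Matrix.toLin' (Matrix.of r).transpose := by
    ext l i
    simp [lc_single, Matrix.toLin'_apply]
  rw [this, LinearMap.det_toLin', Matrix.det_transpose]

/-- Row `0` is `(1,…,1)` (`gr_uC`, `uS_zero`); `Matrix.det_eq_of_forall_row_eq_smul_add_const` with `k = 0` reduces to the
matrix with rows `1` and `[i < l] / L` (`l ≠ 0`), a diagonal matrix times a row permutation (`finRotate`,
`Matrix.det_permute`) of the unitriangular matrix `[i ≤ l]` (`Matrix.det_of_lowerTriangular`); `|det| = L^{-n} ≤ 1`. -/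
theorem norm_det_J_le {t : Fin (n + 1) → ℝ} (h : 1 ≤ ∑ i, t i) :
    ‖(Matrix.of fun l => gr (uC l) t + fun _ => (1 : ℂ)).det‖ ≤ 1 := by
  have hL : 0 < ∑ i, t i := zero_lt_one.trans_le h
  set L : ℝ := ∑ i, t i with hLdef
  let B : Matrix (Fin (n + 1)) (Fin (n + 1)) ℂ := Matrix.of fun l i =>
    if l = 0 then 1 else if i < l then ((L⁻¹ : ℝ) : ℂ) else 0
  have e1 : (Matrix.of fun l => gr (uC l) t + fun _ => (1 : ℂ)).det = B.det := by
    refine Matrix.det_eq_of_forall_row_eq_smul_add_const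
      (fun l => if l = 0 then 0 else ((1 - uS t l / L : ℝ) : ℂ)) 0 (if_pos rfl) fun l i => ?_
    simp only [Matrix.of_apply, Pi.add_apply, gr_uC h, B, if_true, ← hLdef]
    by_cases hl : l = 0
    · subst hl; simp [uS_zero]
    · simp only [hl, if_false]
      split_ifs <;> push_cast <;> ring
  let d : Fin (n + 1) → ℂ := fun l => if l = 0 then 1 else ((L⁻¹ : ℝ) : ℂ)
  let U : Matrix (Fin (n + 1)) (Fin (n + 1)) ℂ := Matrix.of fun l i => if i ≤ l then 1 else 0
  have e2 : B = Matrix.diagonal d * U.submatrix (finRotate (n + 1)).symm id := by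
    ext l i
    rw [Matrix.diagonal_mul]
    simp only [B, d, U, Matrix.of_apply, Matrix.submatrix_apply, id]
    by_cases hl : l = 0
    · subst hl
      have : (finRotate (n + 1)).symm 0 = Fin.last n := by
        rw [Equiv.symm_apply_eq, finRotate_last]
      simp [this, Fin.le_last]
    · obtain ⟨l', rfl⟩ := Fin.exists_succ_eq.2 hl
      have : (finRotate (n + 1)).symm l'.succ = l'.castSucc := by
        rw [Equiv.symm_apply_eq, finRotate_apply, Fin.coeSucc_eq_succ]
      simp only [hl, if_false, this, Fin.le_castSucc_iff]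
      split_ifs <;> simp
  have e3 : U.det = 1 := by
    rw [Matrix.det_of_lowerTriangular U fun l i hli => if_neg (not_le.2 hli)]
    simp [U]
  rw [e1, e2, Matrix.det_mul, Matrix.det_diagonal, Matrix.det_permute, e3, mul_one, norm_mul, norm_prod]
  have e4 : ‖(((Equiv.Perm.sign (finRotate (n + 1)).symm : ℤˣ) : ℤ) : ℂ)‖ = 1 := by
    rcases Int.units_eq_one_or (Equiv.Perm.sign (finRotate (n + 1)).symm) with h | h <;> simp [h]
  rw [e4, mul_one]
  refine Finset.prod_le_one (fun _ _ => norm_nonneg _) fun l _ => ?_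
  simp only [d]
  split_ifs
  · simp
  · rw [Complex.norm_real, Real.norm_of_nonneg (inv_nonneg.2 hL.le)]
    exact inv_le_one_of_one_le₀ h

/-- `io a * (io b * io a) = 0` and two-forms commute with `io a` -/
theorem io_mul_pow_sub (a b : Fin N → ℂ) (F : Matrix (Fin N) (Fin N) ℂ) (c : ℂ) (k : ℕ) :
    io a * (om F - c • (io b * io a)) ^ k = io a * om F ^ k := by
  have h0 : io a * (om F - c • (io b * io a)) = io a * om F := by
    rw [mul_sub, mul_smul_comm, (commute_io_two a b a).eq, mul_assoc, io_mul_self, mul_zero, smul_zero, sub_zero]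
  have hc : Commute (io a) (om F - c • (io b * io a)) :=
    (commute_io_om a F).sub_right ((commute_io_two a b a).smul_right c)
  induction k with
  | zero => simp
  | succ k ih =>
    rw [pow_succ', ← mul_assoc, h0, (commute_io_om a F).eq, mul_assoc, ih, ← mul_assoc, ← (commute_io_om a F).eq,
      mul_assoc, ← pow_succ']

/-- `dM_An`, `om_vecMulVec`, `io_mul_pow_sub` -/
theorem Om_An {β : F1 N} (hβ : Sm β) {v : Fin N → ℝ} (hv : 1 / 16 ≤ (∑ l, β v l).re) (k : ℕ) :
    Om k (An β v) (dM (An β) v) = (∑ j, β v j)⁻¹ ^ (k + 1) * Om k (β v) (dM β v) := by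
  have hD : 1 / 32 ≤ (∑ l, β v l).re := by linarith
  set D := ∑ j, β v j with hDdef
  have e1 : An β v = D⁻¹ • β v := by
    funext l
    simp only [An, ← hDdef, ph_eq hD, Pi.smul_apply, smul_eq_mul, mul_comm]
  have e2 : dM (An β) v = D⁻¹ • (dM β v + (-D⁻¹) • Matrix.vecMulVec (fun i => ∑ j, dM β v i j) (β v)) := by
    ext i l
    rw [dM_An hβ hv]
    simp only [Matrix.smul_apply, Matrix.add_apply, Matrix.vecMulVec_apply, smul_eq_mul, ← hDdef]
    ring
  have hio : io (D⁻¹ • β v) = D⁻¹ • io (β v) := map_smul _ _ _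
  unfold Om
  rw [e1, e2, om_smul, om_add, om_smul, om_vecMulVec, neg_smul, ← sub_eq_add_neg, smul_pow, hio, smul_mul_smul_comm,
    io_mul_pow_sub, map_smul, smul_eq_mul, pow_succ']

/-- Let `J₀ = lc (gr (uC ·) t)`, `J₁ = lc (gr (uC ·) t + 1)`, `A = An β v`, `F = dM (An β) v`, `v = uS t`.
`F` has equal row and column sums (both `0`: `eventually_sum_An`, `Tr.sum_pd`), so `map J₁ (om F) = map J₀ (om F) = omp`,
`J₁ A = J₀ A + 1`, hence `det J₁ * Om k A F = det J₀ * Om k A F + top (io 1 * omp^k)` (`top_map`), and `det J₀ = 0`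
(row `0` vanishes). -/
theorem norm_top_le {β : F1 (n + 1)} (hs : Sm β) (ht' : Tr β) (hd : Dp β) (k : ℕ) {t : Fin (n + 1) → ℝ}
    (ht : t ∈ csh (n + 1)) :
    ‖top (n + 1) (io (gr (hC (n + 1)) t) * omp β t ^ k)‖ ≤
      16 ^ (k + 1) * Th * ‖Om k (β (uu t)) (dM β (uu t))‖ := by
  have hL := ht.2.1
  have hv := ord_uS ht
  have hD := hd _ hv
  rw [← uS_eq_uu (t := t) (by linarith)]
  set v := uS t with hvdef
  set A := An β v with hA
  set F := dM (An β) v with hF
  have hsum : ∑ l, A l = 1 := (eventually_sum_An hs hD).self_of_nhds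
  have hrow : ∀ i, ∑ l, F i l = ∑ l, F l i := fun i => by
    have h1 : ∑ l, F l i = 0 := ht'.An.sum_pd hs.An v i
    have h2 : ∑ l, F i l = 0 := by
      have h3 := congrFun (gr_sum Finset.univ (f := fun l w => An β w l) hs.An v) i
      rw [gr_congr (eventually_sum_An hs hD), gr_const, Finset.sum_apply] at h3
      exact h3.symm
    rw [h1, h2]
  have e1 := map_lc_add_om (fun l => gr (uC l) t) (fun _ => 1) F hrow
  have e0 := omp_eq hs t
  have hmap : ∀ r : Fin (n + 1) → Fin (n + 1) → ℂ, ExteriorAlgebra.map (lc r) (io A * om F ^ k) =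
      io (lc r A) * ExteriorAlgebra.map (lc r) (om F) ^ k := fun r => by
    rw [map_mul, map_pow]; congr 1; exact ExteriorAlgebra.map_apply_ι _ _
  have e2 : lc (fun l => gr (uC l) t + fun _ => 1) A = lc (fun l => gr (uC l) t) A + fun _ => 1 := by
    rw [lc_apply, lc_apply]
    simp only [smul_add, Finset.sum_add_distrib, ← Finset.sum_smul, hsum, one_smul]
  have hio : ∀ a b : Fin (n + 1) → ℂ, io (a + b) = io a + io b := fun a b => map_add _ a b
  have d0 : LinearMap.det (lc fun l => gr (uC l) t) = 0 := by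
    rw [det_lc]
    refine Matrix.det_eq_zero_of_row_eq_zero 0 fun i => ?_
    simp [gr_uC hL, uS_zero]
  have t1 := top_map (lc fun l => gr (uC l) t + fun _ => 1) (io A * om F ^ k)
  have t0 := top_map (lc fun l => gr (uC l) t) (io A * om F ^ k)
  rw [hmap, e1, e2, hio, add_mul, map_add, ← hmap, t0, d0, zero_mul, zero_add, ← e0, det_lc] at t1
  have e3 : io (gr (hC (n + 1)) t) = ((deriv st (∑ i, t i - 1) : ℝ) : ℂ) • io fun _ => 1 := by
    rw [gr_hC, io, io, ← map_smul]; congr 1; funext i; simp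
  have e4 : top (n + 1) (io A * om F ^ k) = (∑ j, β v j)⁻¹ ^ (k + 1) * Om k (β v) (dM β v) := Om_An hs hD k
  rw [e3, smul_mul_assoc, map_smul, t1, e4, smul_eq_mul, norm_mul, norm_mul, norm_mul, norm_pow, Complex.norm_real,
    Real.norm_eq_abs]
  have hTh : 0 ≤ Th := zero_le_one.trans one_le_Th
  calc _ ≤ Th * (1 * (16 ^ (k + 1) * ‖Om k (β v) (dM β v)‖)) := by
        gcongr
        · exact abs_deriv_st_le _
        · exact norm_det_J_le hL
        · exact norm_inv_le hD
    _ = _ := by ring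

/-- the integrand is bounded a.e. on the box by the indicator of the shell times `16^(k+1) Th c Ψ`
(`Measure.ae_eval_ne`, `mem_csh_or`, `om_congr`); `norm_integral_le_of_norm_le`, `setIntegral_le_integral`,
`integral_indicator` -/
theorem norm_I0_le {β : F1 (n + 1)} (hs : Sm β) (ht' : Tr β) (hd : Dp β) (k : ℕ)
    {Ψ : (Fin (n + 1) → ℝ) → ℝ} (hΨ : IntegrableOn Ψ (shell (n + 1))) (h0 : ∀ t, 0 ≤ Ψ t) {c : ℝ} (hc : 0 ≤ c)
    (h : ∀ t ∈ shell (n + 1), ∃ M : Matrix (Fin (n + 1)) (Fin (n + 1)) ℂ,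
      (∀ i l, M i l - M l i = pd i (fun w => β w l) (uu t) - pd l (fun w => β w i) (uu t)) ∧
      ‖Om k (β (uu t)) M‖ ≤ c * Ψ t) :
    ‖I0 k (fun _ => 1) β‖ ≤ 16 ^ (k + 1) * Th * (∫ t in shell (n + 1), Ψ t) * c := by
  have hTh : 0 ≤ Th := zero_le_one.trans one_le_Th
  have hsh : MeasurableSet (shell (n + 1)) := by
    have h1 : Measurable fun t : Fin (n + 1) → ℝ => ∑ i, t i := by fun_prop
    have : shell (n + 1) = (⋂ i, {t | 0 < t i}) ∩ ({t | 1 ≤ ∑ i, t i} ∩ {t | ∑ i, t i ≤ 2}) := by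
      ext t; simp [shell]
    rw [this]
    exact (MeasurableSet.iInter fun i => measurableSet_lt measurable_const (measurable_pi_apply i)).inter
      ((measurableSet_le measurable_const h1).inter (measurableSet_le h1 measurable_const))
  set B : ℝ := 16 ^ (k + 1) * Th * c with hB
  have hB0 : 0 ≤ B := by positivity
  have hint : Integrable ((shell (n + 1)).indicator fun t => B * Ψ t) :=
    (integrable_indicator_iff hsh).2 (hΨ.const_mul B)
  have hnn : ∀ t, 0 ≤ (shell (n + 1)).indicator (fun t => B * Ψ t) t := fun t =>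
    Set.indicator_nonneg (fun s _ => mul_nonneg hB0 (h0 s)) t
  have hae : ∀ᵐ t : Fin (n + 1) → ℝ, ∀ i, t i ≠ 0 := ae_all_iff.2 fun i => Measure.ae_eval_ne _ i 0
  have hb : ∀ᵐ t ∂(volume.restrict (box (n + 1))),
      ‖(1 : ℂ) * top (n + 1) (io (gr (hC (n + 1)) t) * omp β t ^ k)‖ ≤
        (shell (n + 1)).indicator (fun t => B * Ψ t) t := by
    filter_upwards [ae_restrict_mem measurableSet_box, ae_restrict_of_ae hae] with t ht hne
    rcases mem_csh_or ht with hcs | hz
    · have hts : t ∈ shell (n + 1) := ⟨fun i => lt_of_le_of_ne (hcs.1 i) (hne i).symm, hcs.2⟩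
      obtain ⟨M, hM, hb⟩ := h t hts
      rw [Set.indicator_of_mem hts, one_mul]
      refine (norm_top_le hs ht' hd k hcs).trans ?_
      have : Om k (β (uu t)) (dM β (uu t)) = Om k (β (uu t)) M := by
        unfold Om; rw [om_congr (M := dM β (uu t)) (M' := M) fun i l => (hM i l).symm]
      rw [this, hB, mul_assoc _ c]
      gcongr
    · rw [hz, io_zero, zero_mul, map_zero, mul_zero, norm_zero]; exact hnn t
  refine (norm_integral_le_of_norm_le hint.integrableOn hb).trans ?_
  refine (setIntegral_le_integral hint (Eventually.of_forall hnn)).trans (le_of_eq ?_)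
  rw [integral_indicator hsh, integral_const_mul, hB]; ring

end Crest.Agent.R192.CW
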