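import Crest.Agent.R192.Ext

/-!
R192/CW/Defs: definitions of block CW (Chern-Weil theory on cyclic cells), owner helper62.  FROZEN.
Layer C works in the space `Fin N → ℝ` of arc lengths `t`; the simplex is replaced by the cone over it with the
radial cut-off `hC`, all integrals are over the box `[0,3]^N` (the factor `gr hC` vanishes unless `1 ≤ ∑ t ≤ 2`).
Layer B: the pairing of a function of cells with the cyclic measures, as a sum over step words.
-/

set_option autoImplicit false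

open MeasureTheory Complex
open scoped ContDiff

noncomputable section

namespace Crest.Agent.R192.CW
variable {N n : ℕ}

/-! ### layer C -/

abbrev Fn (N : ℕ) := (Fin N → ℝ) → ℂ
abbrev F1 (N : ℕ) := (Fin N → ℝ) → Fin N → ℂ

/-- smooth, positive, `= s` for `s ≥ 1/32` -/
def ps (s : ℝ) : ℝ := st (64 * s - 1) * s + (1 - st (64 * s - 1))
/-- smooth, `= s⁻¹` for `s ≥ 1/32` -/
def iv (s : ℝ) : ℝ := (ps s)⁻¹
/-- smooth, `= z⁻¹` for `re z ≥ 1/32` -/
def ph (z : ℂ) : ℂ := ((ps z.re : ℂ) + (z.im : ℂ) * I)⁻¹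

/-- globally smooth version of `uu` -/
def uS (t : Fin N → ℝ) : Fin N → ℝ := fun l => (∑ j with j < l, t j) * iv (∑ j, t j)
def uC (l : Fin N) : Fn N := fun t => (uS t l : ℂ)
/-- barycentric coordinate -/
def ta (j : Fin N) : Fn N := fun t => ((t j * iv (∑ i, t i) : ℝ) : ℂ)
/-- radial cut-off -/
def hC (N : ℕ) : Fn N := fun t => (st (∑ i, t i - 1) : ℂ)
/-- gradient -/
def gr (f : Fn N) : F1 N := fun t i => pd i f t
/-- normalised form `β / D` -/
def An (β : F1 N) : F1 N := fun v l => β v l * ph (∑ j, β v j)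
def Au (β : F1 N) (l : Fin N) : Fn N := fun t => An β (uS t) l
/-- pull-back of the normalised form -/
def Wf (β : F1 N) : F1 N := fun t => ∑ l, Au β l t • gr (uC l) t
/-- its exterior derivative -/
def omp (β : F1 N) (t : Fin N → ℝ) : Ex N := ∑ l, io (gr (Au β l) t) * io (gr (uC l) t)

def box (N : ℕ) : Set (Fin N → ℝ) := Set.Icc 0 fun _ => 3
/-- closed shell -/
def csh (N : ℕ) : Set (Fin N → ℝ) := {t | (∀ i, 0 ≤ t i) ∧ 1 ≤ ∑ i, t i ∧ ∑ i, t i ≤ 2}

def I0 (k : ℕ) (f : Fn N) (β : F1 N) : ℂ :=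
  ∫ t in box N, f t * top N (io (gr (hC N) t) * omp β t ^ k)
def I1 (k : ℕ) (w : F1 N) (β : F1 N) : ℂ :=
  ∫ t in box N, top N (io (gr (hC N) t) * (io (w t) * omp β t ^ k))

def Sm (β : F1 N) : Prop := ∀ l, ContDiff ℝ ∞ fun v => β v l
def Tr (β : F1 N) : Prop := ∀ (v : Fin N → ℝ) (s : ℝ), β (fun i => v i + s) = β v
def Dp (β : F1 (n + 1)) : Prop := ∀ v, Ord v → 1 / 16 ≤ (∑ l, β v l).re
def Bd (K : ℝ) (β : F1 (n + 1)) : Prop := ∀ v, Ord v → (∀ l, ‖β v l‖ ≤ K) ∧
  ∀ i l, ‖pd i (fun w => β w l) v - pd l (fun w => β w i) v‖ ≤ K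

/-- the face `t a = 0` -/
def ins (a : Fin (n + 1)) (t : Fin n → ℝ) : Fin (n + 1) → ℝ := Fin.insertNth (α := fun _ => ℝ) a 0 t
/-- pull-back of a form along `faceV a` -/
def fc (a : Fin (n + 2)) (β : F1 (n + 2)) : F1 (n + 1) :=
  fun v j => ∑ l with proj a l = j, β (faceV a v) l

/-- rotation of arc lengths -/
def rt (t : Fin (n + 1) → ℝ) : Fin (n + 1) → ℝ := fun l => t (l + 1)
/-- its action on gradients -/
def RR (n : ℕ) : (Fin (n + 1) → ℂ) →ₗ[ℂ] (Fin (n + 1) → ℂ) := LinearMap.funLeft ℂ ℂ fun i => i - 1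

/-- matrix of partial derivatives -/
def dM (β : F1 N) (v : Fin N → ℝ) : Matrix (Fin N) (Fin N) ℂ := Matrix.of fun i l => pd i (fun w => β w l) v
/-- the linear map `e_l ↦ r l` -/
def lc (r : Fin N → Fin N → ℂ) : (Fin N → ℂ) →ₗ[ℂ] (Fin N → ℂ) := Fintype.linearCombination ℂ r

/-- linear combinations of products of exact one-forms -/
inductive Cl : ((Fin N → ℝ) → Ex N) → Prop
  | zero : Cl fun _ => 0
  | one : Cl fun _ => 1
  | add {ξ η : (Fin N → ℝ) → Ex N} (h : Cl ξ) (h' : Cl η) : Cl fun t => ξ t + η t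
  | mul {f : Fn N} (hf : ContDiff ℝ ∞ f) {ξ : (Fin N → ℝ) → Ex N} (h : Cl ξ) :
      Cl fun t => io (gr f t) * ξ t

/-! ### layer B -/

section Pair
variable {G : Type} [Group G] {q : ℕ}

/-- weight of a step word -/
def mu (e : Fin q → Fin q → G → ℂ) (w : Fin (n + 1) → G) : ℂ :=
  ((List.ofFn fun l => em e (w l)).prod).trace

open Classical in
/-- a function of cells as a function of step words -/
def ex (g : G) (F : (Fin (n + 1) → G) → ℂ) (w : Fin (n + 1) → G) : ℂ :=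
  if h : ∃ x, wd g x = w then F h.choose else 0

def pair (g : G) (e : Fin q → Fin q → G → ℂ) (F : (Fin (n + 1) → G) → ℂ) : ℂ :=
  ∑' w, mu e w * ex g F w

def Inv (g : G) (F : (Fin (n + 1) → G) → ℂ) : Prop :=
  ∀ c, Commute c g → ∀ x, F (fun i => c * x i) = F x

def Bdd {X : Type} (F : X → ℂ) : Prop := ∃ C : ℝ, ∀ x, ‖F x‖ ≤ C

end Pair

end Crest.Agent.R192.CW
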