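import Crest.Agent.R192.CW.Piola

/-!
R192/CW/Face: part a: restriction of the forms to a face.  Part b: the two Stokes identities and the trivial ones.
Statements FROZEN (owner helper62).
-/

set_option autoImplicit false

open MeasureTheory Complex Filter Topology
open scoped ContDiff

noncomputable section

namespace Crest.Agent.R192.CW
variable {N n : ℕ}

theorem map_io {M : ℕ} (f : (Fin N → ℂ) →ₗ[ℂ] (Fin M → ℂ)) (v : Fin N → ℂ) :
    ExteriorAlgebra.map f (io v) = io (f v) := ExteriorAlgebra.map_apply_ι f v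

/-! ### part a -/

theorem facea_same (a : Fin (n + 1)) (t : Fin n → ℝ) : ins a t a = 0 := by
  simp [ins]

theorem facea_succAbove (a : Fin (n + 1)) (t : Fin n → ℝ) (j : Fin n) : ins a t (a.succAbove j) = t j := by
  simp [ins]

theorem facea_gr_coord (j : Fin N) (t : Fin N → ℝ) : gr (fun s => (s j : ℂ)) t = Pi.single j 1 := by
  funext i
  have h := (Complex.ofRealCLM.comp
    (ContinuousLinearMap.proj (R := ℝ) (φ := fun _ : Fin N => ℝ) j)).hasFDerivAt (x := t)
  have h2 : fderiv ℝ (fun s : Fin N → ℝ => (s j : ℂ)) t = _ := h.fderiv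
  rw [gr, pd, h2]
  by_cases hij : i = j
  · subst hij; simp
  · simp [hij, Ne.symm hij]

theorem facea_lt (a l : Fin (n + 2)) (h : ¬(l = Fin.last (n + 1) ∧ a = Fin.last (n + 1))) (j : Fin (n + 1)) :
    a.succAbove j < l ↔ j < proj a l := by
  have ha := a.isLt
  have hl := l.isLt
  have hj := j.isLt
  simp only [Fin.ext_iff, Fin.val_last] at h
  unfold proj Fin.succAbove
  split_ifs with h1 h2 h2 <;>
    simp only [Fin.lt_def, Fin.le_def, Fin.val_castSucc, Fin.val_succ, Fin.val_ofNat] at h1 h2 ⊢ <;>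
    rw [Nat.mod_eq_of_lt (by omega)] <;> omega

theorem contDiff_ins (a : Fin (n + 1)) : ContDiff ℝ ∞ (ins a : (Fin n → ℝ) → Fin (n + 1) → ℝ) := by
  refine contDiff_pi.2 fun i => ?_
  induction i using Fin.succAboveCases a with
  | x => simp only [facea_same]; exact contDiff_const
  | p j => simp only [facea_succAbove]; exact contDiff_apply ℝ ℝ j

theorem sum_ins (a : Fin (n + 1)) (t : Fin n → ℝ) : ∑ i, ins a t i = ∑ i, t i := by
  rw [Fin.sum_univ_succAbove _ a]
  simp only [facea_same, facea_succAbove, zero_add]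

/-- chain rule: `ins a` is linear and maps `e_j` to `e_{a.succAbove j}` -/
theorem res_gr {f : Fn (n + 1)} (hf : ContDiff ℝ ∞ f) (a : Fin (n + 1)) (t : Fin n → ℝ) :
    res a (gr f (ins a t)) = gr (fun s => f (ins a s)) t := by
  rw [gr_comp hf (contDiff_ins a), Fin.sum_univ_succAbove _ a]
  simp only [facea_same, facea_succAbove, facea_gr_coord, gr_const, smul_zero, zero_add]
  funext k
  simp [res, gr, Finset.sum_apply, Pi.single_apply]

theorem res_gr_hC (a : Fin (n + 1)) (t : Fin n → ℝ) : res a (gr (hC (n + 1)) (ins a t)) = gr (hC n) t := by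
  rw [gr_hC, gr_hC, sum_ins]
  rfl

/-- `∑_{j<l} ins a t j = ∑_{j < proj a l} t j`, except for `l = a = last` where it is `∑ t`
(`Finset.sum_filter`, `Fin.sum_univ_succAbove`, compare the conditions with `omega`) -/
theorem uS_ins (a : Fin (n + 2)) {t : Fin (n + 1) → ℝ} (h : 1 / 32 ≤ ∑ i, t i) :
    uS (ins a t) = faceV a (uS t) := by
  funext l
  rw [uS, sum_ins, Finset.sum_filter, Fin.sum_univ_succAbove _ a, faceV]
  simp only [facea_same, facea_succAbove, ite_self, zero_add]
  by_cases hl : l = Fin.last (n + 1) ∧ a = Fin.last (n + 1)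
  · obtain ⟨rfl, rfl⟩ := hl
    have h0 : proj (Fin.last (n + 1)) (Fin.last (n + 1)) = 0 := by
      simp [proj, Fin.ext_iff]
    have h1 : (∑ i, t i) ≠ 0 := by linarith
    simp [h0, uS_zero, iv_eq h, h1]
  · simp only [facea_lt a l hl, hl, if_false, add_zero, uS, Finset.sum_filter]

theorem Sm.fc {β : F1 (n + 2)} (h : Sm β) (a : Fin (n + 2)) : Sm (fc a β) := by
  intro j
  refine ContDiff.sum fun l _ => (h l).comp (contDiff_pi.2 fun i => ?_)
  exact (contDiff_apply ℝ ℝ _).add contDiff_const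

/-- `Finset.sum_fiberwise` -/
theorem Au_ins (β : F1 (n + 2)) (a : Fin (n + 2)) {t : Fin (n + 1) → ℝ} (h : 1 / 32 ≤ ∑ i, t i)
    (j : Fin (n + 1)) : ∑ l with proj a l = j, Au β l (ins a t) = Au (fc a β) j t := by
  simp only [Au, An, fc, uS_ins a h]
  rw [Finset.sum_fiberwise, Finset.sum_mul]

theorem res_gr_uC (a l : Fin (n + 2)) {t : Fin (n + 1) → ℝ} (h : 1 ≤ ∑ i, t i) :
    res a (gr (uC l) (ins a t)) = gr (uC (proj a l)) t := by
  rw [res_gr (contDiff_uC l), ← gr_add_const (uC (proj a l))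
    ((if l = Fin.last (n + 1) ∧ a = Fin.last (n + 1) then 1 else 0 : ℝ) : ℂ)]
  refine gr_congr ((eventually_sum_ge h).mono fun s hs => ?_)
  simp only [uC, uS_ins a hs, faceV, Complex.ofReal_add]

theorem res_Wf {β : F1 (n + 2)} (a : Fin (n + 2)) {t : Fin (n + 1) → ℝ} (h : 1 ≤ ∑ i, t i) :
    res a (Wf β (ins a t)) = Wf (fc a β) t := by
  simp only [Wf, map_sum, map_smul, res_gr_uC a _ h]
  rw [← Finset.sum_fiberwise _ (proj a)]
  refine Finset.sum_congr rfl fun j _ => ?_
  rw [← Au_ins β a (by linarith) j, Finset.sum_smul]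
  refine Finset.sum_congr rfl fun l hl => ?_
  rw [(Finset.mem_filter.1 hl).2]

/-- group the sum over `l` by `proj a l`; `gr_sum`, `gr_congr` with `eventually_sum_ge` and `Au_ins` -/
theorem map_omp_ins {β : F1 (n + 2)} (hβ : Sm β) (a : Fin (n + 2)) {t : Fin (n + 1) → ℝ} (h : 1 ≤ ∑ i, t i) :
    ExteriorAlgebra.map (res a) (omp β (ins a t)) = omp (fc a β) t := by
  simp only [omp, map_sum, map_mul, map_io, res_gr_uC a _ h, res_gr (hβ.Au _)]
  rw [← Finset.sum_fiberwise _ (proj a)]
  refine Finset.sum_congr rfl fun j _ => ?_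
  have h1 : gr (Au (fc a β) j) t = ∑ l with proj a l = j, gr (fun s => Au β l (ins a s)) t := by
    rw [← gr_sum (f := fun l s => Au β l (ins a s)) _ fun l => (hβ.Au l).comp (contDiff_ins a)]
    exact gr_congr ((eventually_sum_ge h).mono fun s hs => (Au_ins β a hs j).symm)
  rw [h1, io, map_sum, Finset.sum_mul]
  refine Finset.sum_congr rfl fun l hl => ?_
  rw [(Finset.mem_filter.1 hl).2]
  rfl

/-! ### part b -/

theorem faceb_int {g : Fn N} (hg : Continuous g) : IntegrableOn g (box N) :=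
  hg.continuousOn.integrableOn_compact isCompact_box

theorem faceb_face {β : F1 (n + 2)} (hβ : Sm β) (k : ℕ) (a : Fin (n + 2)) {t : Fin (n + 1) → ℝ}
    (ht : t ∈ box (n + 1)) :
    ExteriorAlgebra.map (res a) (io (gr (hC (n + 2)) (ins a t)) * omp β (ins a t) ^ k) =
      io (gr (hC (n + 1)) t) * omp (fc a β) t ^ k := by
  rw [map_mul, map_io, res_gr_hC]
  rcases mem_csh_or ht with h | h
  · rw [map_pow, map_omp_ins hβ a h.2.1]
  · rw [h, io_zero, zero_mul, zero_mul]

/-- `omp^(k+1) = ∑ l, io (gr (Au l)) * (io (gr (uC l)) * omp^k)`; `stokes` for each `l` (`integral_finset_sum`,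
integrability from continuity on the compact box), exchange the sums, `∑ l, Au l • io (gr (uC l)) = io Wf`;
pointwise on the face either `gr hC = 0` or `1 ≤ ∑ t` (`mem_csh_or`, `setIntegral_congr_fun`). -/
theorem I0_succ {β : F1 (n + 2)} (hβ : Sm β) (k : ℕ) :
    I0 (k + 1) (fun _ => 1) β = ∑ a : Fin (n + 2), (-1) ^ a.val * I1 k (Wf (fc a β)) (fc a β) := by
  have hξ : ∀ l, Cl fun t => io (gr (uC l) t) * omp β t ^ k := fun l => Cl.mul (contDiff_uC l) (Cl.omp_pow hβ k)
  have h1 : I0 (k + 1) (fun _ => 1) β = ∑ l, ∫ t in box (n + 2),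
      top (n + 2) (io (gr (hC (n + 2)) t) * (io (gr (Au β l) t) * (io (gr (uC l) t) * omp β t ^ k))) := by
    rw [← integral_finsetSum _ fun l _ =>
      faceb_int ((Cl.mul contDiff_hC (Cl.mul (hβ.Au l) (hξ l))).smooth (top (n + 2))).continuous]
    refine integral_congr_ae (.of_forall fun t => ?_)
    simp only [one_mul, pow_succ']
    rw [← map_sum, ← Finset.mul_sum]
    congr 2
    conv_lhs => rw [omp, Finset.sum_mul]
    exact Finset.sum_congr rfl fun l _ => mul_assoc _ _ _
  rw [h1, Finset.sum_congr rfl fun l _ => stokes (hβ.Au l) (hξ l), Finset.sum_comm]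
  refine Finset.sum_congr rfl fun a _ => ?_
  have hi : ∀ l, IntegrableOn (fun t => Au β l (ins a t) * top (n + 1) (ExteriorAlgebra.map (res a)
      (io (gr (hC (n + 1 + 1)) (ins a t)) * (io (gr (uC l) (ins a t)) * omp β (ins a t) ^ k)))) (box (n + 1)) :=
    fun l => faceb_int (((hβ.Au l).continuous.comp (contDiff_ins a).continuous).mul
      (((Cl.mul contDiff_hC (hξ l)).smooth
        (top (n + 1) ∘ₗ (ExteriorAlgebra.map (res a)).toLinearMap)).continuous.comp (contDiff_ins a).continuous))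
  rw [← Finset.mul_sum, ← integral_finsetSum _ fun l _ => hi l]
  congr 1
  refine setIntegral_congr_fun measurableSet_box fun t ht => ?_
  have h2 : io (Wf β (ins a t)) = ∑ l, Au β l (ins a t) • io (gr (uC l) (ins a t)) := by
    simp only [Wf, io, map_sum, map_smul]
  have h3 : ∑ l, Au β l (ins a t) * top (n + 1) (ExteriorAlgebra.map (res a)
      (io (gr (hC (n + 2)) (ins a t)) * (io (gr (uC l) (ins a t)) * omp β (ins a t) ^ k))) =
      top (n + 1) (ExteriorAlgebra.map (res a)
        (io (gr (hC (n + 2)) (ins a t)) * (io (Wf β (ins a t)) * omp β (ins a t) ^ k))) := by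
    simp only [h2, Finset.sum_mul, Finset.mul_sum, map_sum, smul_mul_assoc, mul_smul_comm, map_smul, smul_eq_mul]
  refine h3.trans ?_
  rw [map_mul, map_io, res_gr_hC]
  rcases mem_csh_or ht with h | h
  · rw [map_mul (ExteriorAlgebra.map (res a)), map_io, res_Wf a h.2.1, map_pow, map_omp_ins hβ a h.2.1]
  · simp only [h, io_zero, zero_mul]

/-- `stokes` with `f = ta 0`, `Fin.sum_univ_succ`; `ta 0 (ins 0 t) = 0`, `ta 0 (ins b.succ t) = ta 0 t` -/
theorem I1_ta {β : F1 (n + 2)} (hβ : Sm β) (k : ℕ) :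
    I1 k (gr (ta 0)) β = ∑ b : Fin (n + 1), (-1) ^ (b.val + 1) * I0 k (ta 0) (fc b.succ β) := by
  rw [I1, stokes (contDiff_ta 0) (Cl.omp_pow hβ k), Fin.sum_univ_succ]
  have h0 : ∀ t : Fin (n + 1) → ℝ, ta (0 : Fin (n + 2)) (ins 0 t) = 0 := fun t => by
    simp [ta, ins]
  simp only [h0, zero_mul, integral_zero, mul_zero, zero_add, Fin.val_succ]
  refine Finset.sum_congr rfl fun b _ => ?_
  congr 1
  refine setIntegral_congr_fun measurableSet_box fun t ht => ?_
  have h1 : ta (0 : Fin (n + 2)) (ins b.succ t) = ta 0 t := by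
    have h2 : ins b.succ t 0 = t 0 := by
      have := Fin.insertNth_apply_succAbove (α := fun _ => ℝ) b.succ 0 t 0
      rwa [Fin.succ_succAbove_zero] at this
    simp only [ta, sum_ins, h2]
  simp only [h1, faceb_face hβ k b.succ ht]

theorem sum_I0_ta {β : F1 N} (hβ : Sm β) (k : ℕ) : ∑ j, I0 k (ta j) β = I0 k (fun _ => 1) β := by
  unfold I0
  have hi : ∀ j, IntegrableOn (fun t => ta j t * top N (io (gr (hC N) t) * omp β t ^ k)) (box N) :=
    fun j => faceb_int ((contDiff_ta j).continuous.mul (continuous_I0 hβ k))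
  rw [← integral_finsetSum _ fun j _ => hi j]
  refine setIntegral_congr_fun measurableSet_box fun t ht => ?_
  dsimp only
  rw [← Finset.sum_mul]
  rcases mem_csh_or ht with h | h
  · rw [sum_ta (by linarith [h.2.1])]
  · simp only [h, io_zero, zero_mul, map_zero, mul_zero]

/-- `top 1 (io v) = v 0` (`top_ιMulti`), `gr_hC`, `volume_preserving_funUnique`, `∫_0^3 st' (s - 1) = st 2 - st (-1)` -/
theorem I0_zero (β : F1 1) : I0 0 (fun _ => 1) β = 1 := by
  have h1 : ∀ v : Fin 1 → ℂ, top 1 (io v) = v 0 := fun v => by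
    have := top_ιMulti (N := 1) fun _ => v
    simpa [io] using this
  have h2 : I0 0 (fun _ => 1) β = ∫ t in box 1, ((deriv st (t 0 - 1) : ℝ) : ℂ) := by
    simp [I0, h1, gr_hC]
  have h3 := (volume_preserving_funUnique (Fin 1) ℝ).setIntegral_preimage_emb
    (MeasurableEquiv.funUnique (Fin 1) ℝ).measurableEmbedding (fun s => ((deriv st (s - 1) : ℝ) : ℂ)) (Set.Icc 0 3)
  have h4 : (MeasurableEquiv.funUnique (Fin 1) ℝ) ⁻¹' Set.Icc 0 3 = box 1 := by
    ext t
    simp [box, Pi.le_def, Fin.forall_fin_one]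
  rw [h4] at h3
  rw [h2]
  refine h3.trans ?_
  have hd : Differentiable ℝ st := (Real.smoothTransition.contDiff (n := 1)).differentiable one_ne_zero
  have hc : Continuous (deriv st) := (Real.smoothTransition.contDiff (n := 1)).continuous_deriv le_rfl
  rw [integral_complex_ofReal, integral_Icc_eq_integral_Ioc, ← intervalIntegral.integral_of_le (by norm_num),
    intervalIntegral.integral_comp_sub_right (deriv st) 1,
    intervalIntegral.integral_deriv_eq_sub (fun x _ => hd x) (hc.intervalIntegrable _ _),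
    show st (3 - 1) = 1 from Real.smoothTransition.one_of_one_le (by norm_num),
    show st (0 - 1) = 0 from Real.smoothTransition.zero_of_nonpos (by norm_num)]
  simp

end Crest.Agent.R192.CW
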