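import Crest.Agent.R192.CW.Defs

/-!
R192/CW/Pair: the pairing of functions of cells with the cyclic measures.  Part a: estimates, linearity, degree zero.
Part b: invariance under rotation and faces.  Statements FROZEN (owner helper62).
-/

set_option autoImplicit false

open Complex Crest.AlgebraR.L1

noncomputable section

namespace Crest.Agent.R192.CW
variable {G : Type} [Group G] {q n : ℕ} {g : G} {e : Fin q → Fin q → G → ℂ}

/-! ### part a -/

theorem mn_nonneg (A : Matrix (Fin q) (Fin q) ℂ) : 0 ≤ mn A := by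
  exact Finset.sum_nonneg fun _ _ => Finset.sum_nonneg fun _ _ => norm_nonneg _

theorem mn_mul_le (A B : Matrix (Fin q) (Fin q) ℂ) : mn (A * B) ≤ mn A * mn B := by
  unfold mn
  calc ∑ i, ∑ j, ‖(A * B) i j‖ ≤ ∑ i, ∑ j, ∑ k, ‖A i k‖ * ‖B k j‖ := by
        refine Finset.sum_le_sum fun i _ => Finset.sum_le_sum fun j _ => ?_
        rw [Matrix.mul_apply]
        exact (norm_sum_le _ _).trans (le_of_eq (by simp only [norm_mul]))
    _ = ∑ i, ∑ k, ‖A i k‖ * ∑ j, ‖B k j‖ := by
        refine Finset.sum_congr rfl fun i _ => ?_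
        rw [Finset.sum_comm]; simp only [Finset.mul_sum]
    _ ≤ ∑ i, ∑ k, ‖A i k‖ * ∑ k', ∑ j, ‖B k' j‖ := by
        refine Finset.sum_le_sum fun i _ => Finset.sum_le_sum fun k _ => mul_le_mul_of_nonneg_left ?_ (norm_nonneg _)
        exact Finset.single_le_sum (f := fun k' => ∑ j, ‖B k' j‖)
          (fun _ _ => Finset.sum_nonneg fun _ _ => norm_nonneg _) (Finset.mem_univ k)
    _ = _ := by simp only [Finset.sum_mul]

theorem norm_trace_le (A : Matrix (Fin q) (Fin q) ℂ) : ‖A.trace‖ ≤ mn A := by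
  refine (norm_sum_le _ _).trans (Finset.sum_le_sum fun i _ => ?_)
  exact Finset.single_le_sum (f := fun j => ‖A i j‖) (fun _ _ => norm_nonneg _) (Finset.mem_univ i)

/-- induction on `n` with `List.ofFn_succ`, `Fin.prod_univ_succ` -/
theorem norm_mu_le (e : Fin q → Fin q → G → ℂ) (w : Fin (n + 1) → G) :
    ‖mu e w‖ ≤ ∏ l, mn (em e (w l)) := by
  refine (norm_trace_le _).trans ?_
  induction n with
  | zero => simp
  | succ n ih =>
    rw [List.ofFn_succ, List.prod_cons, Fin.prod_univ_succ]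
    exact (mn_mul_le _ _).trans (mul_le_mul_of_nonneg_left (ih fun l => w l.succ) (mn_nonneg _))

/-- induction on `m` with `Fin.consEquiv`, `Summable.mul_of_nonneg`, `Summable.tsum_mul_tsum` (or `HasSum.mul_of_nonneg`) -/
theorem hasSum_prod {X : Type} {f : X → ℝ} (h0 : ∀ x, 0 ≤ f x) (hf : Summable f) (m : ℕ) :
    HasSum (fun w : Fin m → X => ∏ l, f (w l)) ((∑' x, f x) ^ m) := by
  induction m with
  | zero => simp
  | succ m ih =>
    rw [pow_succ', ← (Fin.consEquiv fun _ : Fin (m + 1) => X).hasSum_iff]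
    have h1 := hf.hasSum.mul ih (hf.mul_of_nonneg ih.summable h0 fun w => Finset.prod_nonneg fun l _ => h0 _)
    have h2 : ((fun w : Fin (m + 1) → X => ∏ l, f (w l)) ∘ (Fin.consEquiv fun _ : Fin (m + 1) => X)) =
        fun p => f p.1 * ∏ l, f (p.2 l) := by
      funext p
      simp [Fin.prod_univ_succ, Fin.consEquiv]
    rw [h2]; exact h1

theorem summable_mn (he : IsL1IdempotentMatrix e) : Summable fun w => mn (em e w) := by
  exact summable_sum fun i _ => summable_sum fun j _ => he.1 i j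

theorem summable_norm_mu (he : IsL1IdempotentMatrix e) : Summable fun w : Fin (n + 1) → G => ‖mu e w‖ := by
  exact Summable.of_nonneg_of_le (fun _ => norm_nonneg _) (norm_mu_le e)
    (hasSum_prod (fun w => mn_nonneg (em e w)) (summable_mn he) (n + 1)).summable

theorem Bdd.ex {F : (Fin (n + 1) → G) → ℂ} (hF : Bdd F) : Bdd (ex g F) := by
  obtain ⟨C, hC⟩ := hF
  refine ⟨C, fun w => ?_⟩
  unfold CW.ex
  split_ifs
  · exact hC _
  · rw [norm_zero]; exact (norm_nonneg _).trans (hC 1)

theorem summable_pair (he : IsL1IdempotentMatrix e) {H : (Fin (n + 1) → G) → ℂ} (hH : Bdd H) :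
    Summable fun w => mu e w * H w := by
  obtain ⟨C, hC⟩ := hH
  refine Summable.of_norm_bounded ((summable_norm_mu he).mul_right C) fun w => ?_
  rw [norm_mul]; exact mul_le_mul_of_nonneg_left (hC w) (norm_nonneg _)

theorem pair_const_mul (c : ℂ) (F : (Fin (n + 1) → G) → ℂ) :
    pair g e (fun x => c * F x) = c * pair g e F := by
  unfold pair
  rw [← tsum_mul_left]
  refine tsum_congr fun w => ?_
  unfold ex
  split_ifs <;> ring

theorem pair_sub (he : IsL1IdempotentMatrix e) {F F' : (Fin (n + 1) → G) → ℂ} (hF : Bdd F) (hF' : Bdd F') :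
    pair g e (fun x => F x - F' x) = pair g e F - pair g e F' := by
  unfold pair
  rw [← (summable_pair he hF.ex).tsum_sub (summable_pair he hF'.ex)]
  refine tsum_congr fun w => ?_
  unfold ex
  split_ifs <;> ring

theorem pair_sum (he : IsL1IdempotentMatrix e) {ι : Type*} (S : Finset ι) {F : ι → (Fin (n + 1) → G) → ℂ}
    (hF : ∀ i, Bdd (F i)) : pair g e (fun x => ∑ i ∈ S, F i x) = ∑ i ∈ S, pair g e (F i) := by
  unfold pair
  rw [← Summable.tsum_finsetSum fun i _ => summable_pair he (hF i).ex]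
  refine tsum_congr fun w => ?_
  unfold ex
  split_ifs
  · rw [Finset.mul_sum]
  · simp

/-- `wd g x 0 = (x 0)⁻¹ * g * x 0` for `x : Fin 1 → G`; `Equiv.funUnique`, `tsum_subtype` -/
theorem pair_one : pair g e (fun _ : Fin 1 → G => 1) = classTrace e (ConjClasses.mk g).carrier := by
  unfold pair classTrace
  rw [tsum_subtype (ConjClasses.mk g).carrier fun y => ∑ i, e i i y, ← (Equiv.funUnique (Fin 1) G).symm.tsum_eq]
  refine tsum_congr fun y => ?_
  have hw : ∀ x : Fin 1 → G, wd g x = fun _ => (x 0)⁻¹ * g * x 0 := fun x => by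
    funext l
    have : l = 0 := Fin.eq_zero l
    subst this
    simp [wd, pv, Fin.last]
  have hiff : (∃ x, wd g x = (Equiv.funUnique (Fin 1) G).symm y) ↔ y ∈ (ConjClasses.mk g).carrier := by
    rw [ConjClasses.mem_carrier_iff_mk_eq, ConjClasses.mk_eq_mk_iff_isConj, isConj_iff]
    constructor
    · rintro ⟨x, hx⟩
      have := congrFun hx 0
      rw [hw] at this
      refine ⟨x 0, ?_⟩
      have h2 : y = (x 0)⁻¹ * g * x 0 := this.symm
      rw [h2]; group
    · rintro ⟨c, hc⟩
      refine ⟨fun _ => c, ?_⟩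
      rw [hw, ← hc]
      funext l
      show c⁻¹ * (c * y * c⁻¹) * c = y
      group
  unfold ex
  by_cases h : y ∈ (ConjClasses.mk g).carrier
  · rw [dif_pos (hiff.2 h), Set.indicator_of_mem h]
    simp [mu, em, Matrix.trace]
  · rw [dif_neg (mt hiff.1 h), Set.indicator_of_notMem h, mul_zero]

/-- `tsum_of_norm_bounded` with `hasSum_prod` -/
theorem norm_pair_le {W : G → ℝ} (hW : ∀ w, 0 ≤ W w) (hs : Summable fun w => mn (em e w) * W w)
    {F : (Fin (n + 1) → G) → ℂ} {C : ℝ} (hC : 0 ≤ C) (hF : ∀ x, ‖F x‖ ≤ C * ∏ l, W (wd g x l)) :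
    ‖pair g e F‖ ≤ C * (∑' w, mn (em e w) * W w) ^ (n + 1) := by
  have h0 : ∀ w, 0 ≤ mn (em e w) * W w := fun w => mul_nonneg (mn_nonneg _) (hW w)
  refine tsum_of_norm_bounded ((hasSum_prod h0 hs (n + 1)).mul_left C) fun w => ?_
  have h1 : ‖ex g F w‖ ≤ C * ∏ l, W (w l) := by
    unfold ex
    split_ifs with h
    · have := hF h.choose
      rwa [h.choose_spec] at this
    · rw [norm_zero]; exact mul_nonneg hC (Finset.prod_nonneg fun l _ => hW _)
  rw [norm_mul, Finset.prod_mul_distrib]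
  calc _ ≤ (∏ l, mn (em e (w l))) * (C * ∏ l, W (w l)) :=
        mul_le_mul (norm_mu_le e w) h1 (norm_nonneg _) (Finset.prod_nonneg fun l _ => mn_nonneg _)
    _ = _ := by ring

/-! ### part b -/

theorem pairb1_add (l : Fin (n + 1)) : l + 1 = 0 ↔ l = Fin.last n := by
  rw [← Fin.last_add_one n, add_left_inj]

theorem pairb1_sub (l : Fin (n + 1)) : l - 1 = Fin.last n ↔ l = 0 := by
  rw [sub_eq_iff_eq_add, Fin.last_add_one]

theorem pairb1_pv_rotX (x : Fin (n + 1) → G) : pv g (rotX g x) = x := by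
  funext l
  by_cases h : l = 0
  · subst h; simp [pv, rotX]
  · simp [pv, rotX, h, pairb1_sub]

theorem pairb1_rotX_mul {c : G} (hc : Commute c g) (x : Fin (n + 1) → G) :
    rotX g (fun i => c * x i) = fun i => c * rotX g x i := by
  funext l
  unfold rotX
  split_ifs
  · rw [← mul_assoc, ← mul_assoc, hc.eq]
  · rfl

theorem pairb1_pv_mul {c : G} (hc : Commute c g) (x : Fin (n + 1) → G) :
    pv g (fun i => c * x i) = fun i => c * pv g x i := by
  funext l
  unfold pv
  split_ifs
  · rw [← mul_assoc, ← mul_assoc, hc.inv_right.eq]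
  · rfl

/-- if `wd g x = wd g x'` then `x' i = c * x i` with `c = x' 0 * (x 0)⁻¹` (induction on `i`), and the step `0` gives
`c g = g c` -/
theorem ex_wd {F : (Fin (n + 1) → G) → ℂ} (hF : Inv g F) (x : Fin (n + 1) → G) : ex g F (wd g x) = F x := by
  have h : ∃ x', wd g x' = wd g x := ⟨x, rfl⟩
  rw [ex, dif_pos h]
  have hx := h.choose_spec
  set x' := h.choose
  have h1 : ∀ i, x' i = x' 0 * (x 0)⁻¹ * x i := by
    intro i
    induction i using Fin.induction with
    | zero => simp
    | succ i ih =>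
      have h2 := congrFun hx i.succ
      have e : i.succ - 1 = i.castSucc := by rw [sub_eq_iff_eq_add, Fin.coeSucc_eq_succ]
      simp only [wd, pv, Fin.succ_ne_zero, if_false, e] at h2
      rw [inv_mul_eq_iff_eq_mul, ih] at h2
      rw [h2]
      group
  have h2 := congrFun hx 0
  simp only [wd, pv, if_true] at h2
  rw [h1 (Fin.last n)] at h2
  have hc : Commute (x' 0 * (x 0)⁻¹) g := by
    have h3 : (x' 0 * (x 0)⁻¹)⁻¹ * g * (x' 0 * (x 0)⁻¹) = g := by
      calc (x' 0 * (x 0)⁻¹)⁻¹ * g * (x' 0 * (x 0)⁻¹)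
          = x (Fin.last n) * ((g⁻¹ * (x' 0 * (x 0)⁻¹ * x (Fin.last n)))⁻¹ * x' 0) * (x 0)⁻¹ := by group
        _ = g := by rw [h2]; group
    calc x' 0 * (x 0)⁻¹ * g
        = x' 0 * (x 0)⁻¹ * ((x' 0 * (x 0)⁻¹)⁻¹ * g * (x' 0 * (x 0)⁻¹)) := by rw [h3]
      _ = g * (x' 0 * (x 0)⁻¹) := by group
  rw [← hF _ hc x]
  exact congrArg F (funext h1)

theorem wd_rotX (x : Fin (n + 1) → G) : wd g (rotX g x) = fun l => wd g x (l + 1) := by
  funext l
  rw [wd, pairb1_pv_rotX]
  by_cases h : l = Fin.last n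
  · subst h; simp [wd, pv, rotX, mul_assoc]
  · simp [wd, pv, rotX, h, pairb1_add]

/-- `rotX g (pv g x) = x` and `pv g (rotX g x) = x` -/
theorem rotX_pv (x : Fin (n + 1) → G) : rotX g (pv g x) = x := by
  funext l
  by_cases h : l = Fin.last n
  · subst h; simp [pv, rotX]
  · simp [pv, rotX, h, pairb1_add]

theorem pv_rotX (x : Fin (n + 1) → G) : pv g (rotX g x) = x := by
  exact pairb1_pv_rotX x

/-- `Matrix.trace_mul_comm`, `List.ofFn_succ`, `List.ofFn_succ'` -/
theorem mu_rot (w : Fin (n + 1) → G) : mu e (fun l => w (l + 1)) = mu e w := by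
  unfold mu
  rw [List.ofFn_succ', List.prod_concat, Matrix.trace_mul_comm, List.ofFn_succ, List.prod_cons]
  simp only [Fin.last_add_one, Fin.coeSucc_eq_succ]

/-- `ex g (F ∘ rotX) w = ex g F (w (· + 1))`, reindex with `Equiv.tsum_eq` -/
theorem pair_rot {F : (Fin (n + 1) → G) → ℂ} (hF : Inv g F) :
    pair g e (fun x => F (rotX g x)) = pair g e F := by
  have hF' : Inv g fun x => F (rotX g x) := fun c hc x => by
    simp only [pairb1_rotX_mul hc, hF c hc]
  have key : ∀ w : Fin (n + 1) → G, ex g (fun x => F (rotX g x)) w = ex g F fun l => w (l + 1) := by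
    intro w
    by_cases h : ∃ x, wd g x = w
    · obtain ⟨x, rfl⟩ := h
      rw [ex_wd hF', ← wd_rotX, ex_wd hF]
    · rw [ex, dif_neg h, ex, dif_neg]
      rintro ⟨x, hx⟩
      refine h ⟨pv g x, funext fun l => ?_⟩
      have h1 := congrFun (wd_rotX (g := g) (pv g x)) (l - 1)
      have h2 := congrFun hx (l - 1)
      rw [rotX_pv, h2] at h1
      simpa using h1.symm
  let E : (Fin (n + 1) → G) ≃ (Fin (n + 1) → G) :=
    ⟨fun w l => w (l + 1), fun w l => w (l - 1), fun w => by funext l; simp, fun w => by funext l; simp⟩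
  unfold pair
  rw [← E.tsum_eq fun w => mu e w * ex g F w]
  refine tsum_congr fun w => ?_
  rw [key, ← mu_rot w]
  rfl

theorem tsum_em_mul (he : IsL1IdempotentMatrix e) (w : G) :
    HasSum (fun y => em e y * em e (y⁻¹ * w)) (em e w) := by
  refine Pi.hasSum.2 fun i => Pi.hasSum.2 fun j => ?_
  have h1 : ∀ k, HasSum (fun y => e i k y * e k j (y⁻¹ * w)) (conv (e i k) (e k j) w) := fun k => by
    refine Summable.hasSum (Summable.of_norm_bounded ((he.1 i k).mul_right (∑' x, ‖e k j x‖)) fun y => ?_)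
    rw [norm_mul]
    exact mul_le_mul_of_nonneg_left ((he.1 k j).le_tsum _ fun _ _ => norm_nonneg _) (norm_nonneg _)
  have h2 := hasSum_sum (s := Finset.univ) fun k _ => h1 k
  rw [he.2 i j w] at h2
  exact h2

/-- split the first step -/
def b2_split : (Fin (n + 1) → G) × G ≃ (Fin (n + 2) → G) where
  toFun p := Fin.cons p.2 (Fin.cons (p.2⁻¹ * p.1 0) (Fin.tail p.1) : Fin (n + 1) → G)
  invFun w := (Fin.cons (w 0 * w 1) fun i => w i.succ.succ, w 0)
  left_inv p := by
    refine Prod.ext ?_ rfl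
    funext i
    refine Fin.cases ?_ (fun i => rfl) i
    show p.2 * (p.2⁻¹ * p.1 0) = p.1 0
    rw [mul_inv_cancel_left]
  right_inv w := by
    funext i
    refine Fin.cases rfl (fun i => Fin.cases ?_ (fun i => rfl) i) i
    show (w 0)⁻¹ * (w 0 * w 1) = w 1
    rw [inv_mul_cancel_left]

theorem b2_wd_cons (x : Fin (n + 1) → G) (y : G) :
    wd g (Fin.cons (pv g x 0 * y) x : Fin (n + 2) → G) = b2_split (wd g x, y) := by
  funext i
  refine Fin.cases ?_ (fun i => Fin.cases ?_ (fun i => ?_) i) i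
  · show (pv g (Fin.cons (pv g x 0 * y) x : Fin (n + 2) → G) 0)⁻¹ * (pv g x 0 * y) = y
    have : pv g (Fin.cons (pv g x 0 * y) x : Fin (n + 2) → G) 0 = pv g x 0 := by
      unfold pv; rw [if_pos rfl, if_pos rfl]; rfl
    rw [this, inv_mul_cancel_left]
  · show (pv g (Fin.cons (pv g x 0 * y) x : Fin (n + 2) → G) (Fin.succ 0))⁻¹ * x 0 = y⁻¹ * ((pv g x 0)⁻¹ * x 0)
    have : pv g (Fin.cons (pv g x 0 * y) x : Fin (n + 2) → G) (Fin.succ 0) = pv g x 0 * y := by
      rw [pv, if_neg (Fin.succ_ne_zero _), Fin.succ_zero_eq_one, sub_self]; rfl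
    rw [this, mul_inv_rev, mul_assoc]
  · show (pv g (Fin.cons (pv g x 0 * y) x : Fin (n + 2) → G) i.succ.succ)⁻¹ * x i.succ = (pv g x i.succ)⁻¹ * x i.succ
    have h1 : ∀ {m : ℕ} (j : Fin m), (j.succ - 1 : Fin (m + 1)) = j.castSucc := fun j => by
      rw [sub_eq_iff_eq_add, Fin.coeSucc_eq_succ]
    generalize pv g x 0 * y = z
    rw [pv, pv, if_neg (Fin.succ_ne_zero _), if_neg (Fin.succ_ne_zero _), h1, h1]
    rfl

/-- Words of length `n + 2` are pairs `(w', y)`: `w = (y, y⁻¹ w'₀, w'₁, …)`; `ex g (F ∘ faceX 0) w = ex g F w'`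
(if `w' = wd g x'` take `x = Fin.cons (pv g x' 0 * y) x'`); `Summable.tsum_prod`, `tsum_em_mul` composed with the
continuous linear map `A ↦ trace (A * B)`. -/
theorem pair_face_zero (he : IsL1IdempotentMatrix e) {F : (Fin (n + 1) → G) → ℂ} (hF : Inv g F) (hb : Bdd F) :
    pair g e (fun x => F (faceX 0 x)) = pair g e F := by
  have hb' : Bdd fun x : Fin (n + 2) → G => F (faceX 0 x) := hb.imp fun C hC x => hC _
  have hF' : Inv g fun x : Fin (n + 2) → G => F (faceX 0 x) := fun c hc x => hF c hc (faceX 0 x)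
  have hex : ∀ p : (Fin (n + 1) → G) × G, ex g (fun x => F (faceX 0 x)) (b2_split p) = ex g F p.1 := by
    rintro ⟨w, y⟩
    by_cases h : ∃ x, wd g x = w
    · obtain ⟨x, rfl⟩ := h
      rw [← b2_wd_cons, ex_wd hF', ex_wd hF]
      congr 1
    · have h' : ¬ ∃ x, wd g x = b2_split (w, y) := by
        rintro ⟨x, hx⟩
        refine h ⟨faceX 0 x, ?_⟩
        have h1 := b2_wd_cons (g := g) (faceX 0 x) ((pv g (faceX 0 x) 0)⁻¹ * x 0)
        have h2 : (Fin.cons (pv g (faceX 0 x) 0 * ((pv g (faceX 0 x) 0)⁻¹ * x 0)) (faceX 0 x) :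
            Fin (n + 2) → G) = x := by
          rw [mul_inv_cancel_left]; exact Fin.cons_self_tail x
        rw [h2, hx] at h1
        exact (congrArg Prod.fst (b2_split.injective h1)).symm
      unfold ex
      rw [dif_neg h, dif_neg h']
  have hsum := (b2_split (G := G) (n := n)).summable_iff.2 (summable_pair he (hb'.ex (g := g)))
  unfold pair
  rw [← b2_split.tsum_eq]
  refine hsum.tsum_prod.trans (tsum_congr fun w => ?_)
  simp only [Function.comp, hex]
  rw [tsum_mul_right]
  congr 1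
  set B := (List.ofFn fun l : Fin n => em e (w l.succ)).prod with hB
  have e1 : ∀ y, mu e (b2_split (w, y)) = (em e y * em e (y⁻¹ * w 0) * B).trace := fun y => by
    simp [mu, b2_split, List.ofFn_succ, hB, Matrix.mul_assoc, Fin.tail]
  have e2 : mu e w = (em e (w 0) * B).trace := by simp [mu, List.ofFn_succ, hB]
  let T : Matrix (Fin q) (Fin q) ℂ →+ ℂ :=
    (Matrix.traceAddMonoidHom (Fin q) ℂ).comp (AddMonoidHom.mulRight B)
  have hT : Continuous T := (continuous_id.matrix_mul continuous_const).matrix_trace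
  simp only [e1, e2]
  exact ((tsum_em_mul he (w 0)).map T hT).tsum_eq

theorem rotX_faceX (b : Fin (n + 1)) (x : Fin (n + 2) → G) :
    rotX g (faceX b.succ x) = faceX b.castSucc (rotX g x) := by
  funext j
  induction j using Fin.lastCases with
  | last =>
    simp only [rotX, faceX, if_true, Fin.succ_succAbove_zero,
      Fin.succAbove_castSucc_of_le b (Fin.last n) (Fin.le_last b), Fin.succ_last]
  | cast j =>
    simp only [rotX, faceX, Fin.castSucc_ne_last, if_false, Fin.coeSucc_eq_succ, Fin.succ_succAbove_succ,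
      Fin.castSucc_succAbove_castSucc]

/-- induction on `a` (`Fin.induction`, generalizing `F`): with `F' = F ∘ pv g` one has
`F (faceX b.succ x) = F' (faceX b.castSucc (rotX g x))`; use `pair_rot` twice -/
theorem pair_face (he : IsL1IdempotentMatrix e) (a : Fin (n + 2)) {F : (Fin (n + 1) → G) → ℂ} (hF : Inv g F)
    (hb : Bdd F) : pair g e (fun x => F (faceX a x)) = pair g e F := by
  induction a using Fin.induction generalizing F with
  | zero => exact pair_face_zero he hF hb
  | succ b ih =>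
    have hF' : Inv g fun x => F (pv g x) := fun c hc x => by
      simp only [pairb1_pv_mul hc, hF c hc]
    have hb' : Bdd fun x => F (pv g x) := hb.imp fun C hC x => hC _
    have hH : Inv g fun y => F (pv g (faceX b.castSucc y)) := fun c hc x => hF' c hc (faceX b.castSucc x)
    have h1 := pair_rot (e := e) hH
    have h2 := pair_rot (e := e) hF'
    simp only [← rotX_faceX, pv_rotX] at h1 h2
    rw [h1, ih hF' hb', ← h2]

end Crest.Agent.R192.CW
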