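import Crest.Agent.R192.CW.Face

/-!
R192/CW/Rot: behaviour of the integrals under rotation of the cell.  Statements FROZEN (owner helper62).
-/

set_option autoImplicit false

open MeasureTheory Complex Filter Topology
open scoped ContDiff

noncomputable section

namespace Crest.Agent.R192.CW
variable {n : ℕ}

/-- a permutation matrix: `LinearMap.det_toLin'` / `Matrix.det_permutation`, `sign_finRotate`, `finRotate_succ_apply` -/
theorem det_RR (n : ℕ) : LinearMap.det (RR n) = (-1) ^ n := by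
  have h : RR n = Matrix.toLin' (Equiv.Perm.permMatrix ℂ (finRotate (n + 1)).symm) := by
    refine LinearMap.ext fun v => funext fun i => ?_
    have : (finRotate (n + 1)).symm i = i - 1 := by
      rw [Equiv.symm_apply_eq, finRotate_apply, sub_add_cancel]
    rw [Matrix.toLin'_apply, Matrix.permMatrix_mulVec]
    show v (i - 1) = v ((finRotate (n + 1)).symm i)
    rw [this]
  rw [h, LinearMap.det_toLin', Matrix.det_permutation, Equiv.Perm.sign_symm, sign_finRotate]
  simp

theorem contDiff_rt : ContDiff ℝ ∞ (rt : (Fin (n + 1) → ℝ) → Fin (n + 1) → ℝ) := by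
  exact contDiff_pi.2 fun l => contDiff_apply ℝ ℝ (l + 1)

theorem sum_rt (t : Fin (n + 1) → ℝ) : ∑ i, rt t i = ∑ i, t i := by
  exact Equiv.sum_comp (Equiv.addRight (1 : Fin (n + 1))) t

/-- chain rule: `rt` is linear and maps `e_i` to `e_{i-1}` -/
theorem RR_gr {f : Fn (n + 1)} (hf : ContDiff ℝ ∞ f) (t : Fin (n + 1) → ℝ) :
    RR n (gr f (rt t)) = gr (fun s => f (rt s)) t := by
  funext i
  let T : (Fin (n + 1) → ℝ) →L[ℝ] (Fin (n + 1) → ℝ) :=
    ContinuousLinearMap.pi fun l => ContinuousLinearMap.proj (l + 1)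
  have h1 : HasFDerivAt (fun s => f (rt s)) ((fderiv ℝ f (rt t)).comp T) t :=
    ((hf.differentiable (by simp)) (rt t)).hasFDerivAt.comp t T.hasFDerivAt
  show fderiv ℝ f (rt t) (Pi.single (i - 1) 1) = fderiv ℝ (fun s => f (rt s)) t (Pi.single i 1)
  rw [h1.fderiv, ContinuousLinearMap.comp_apply]
  congr 1
  funext l
  simp only [T, ContinuousLinearMap.pi_apply, ContinuousLinearMap.proj_apply, Pi.single_apply, eq_sub_iff_add_eq]

/-- `volume_measurePreserving_piCongrLeft` (or `volume_preserving_arrowCongr'`), `MeasurePreserving.setIntegral_preimage_emb` -/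
theorem integral_rt (F : Fn (n + 1)) : ∫ t in box (n + 1), F (rt t) = ∫ t in box (n + 1), F t := by
  let e : Fin (n + 1) ≃ Fin (n + 1) := (Equiv.addRight (1 : Fin (n + 1))).symm
  have h := volume_measurePreserving_piCongrLeft (fun _ : Fin (n + 1) => ℝ) e
  have h1 : (MeasurableEquiv.piCongrLeft (fun _ : Fin (n + 1) => ℝ) e : _ → _) = rt := by
    funext t l
    have := MeasurableEquiv.piCongrLeft_apply_apply e (β := fun _ => ℝ) t (e.symm l)
    rw [Equiv.apply_symm_apply] at this
    exact this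
  have h2 : rt ⁻¹' box (n + 1) = box (n + 1) := by
    ext t
    simp only [box, Set.mem_preimage, Set.mem_Icc, Pi.le_def, rt, Pi.zero_apply]
    exact and_congr ((Equiv.addRight (1 : Fin (n + 1))).forall_congr_right (q := fun i => 0 ≤ t i))
      ((Equiv.addRight (1 : Fin (n + 1))).forall_congr_right (q := fun i => t i ≤ 3))
  have h3 := h.setIntegral_preimage_emb (MeasurableEquiv.measurableEmbedding _) F (box (n + 1))
  rwa [h1, h2] at h3

theorem uS_rt {t : Fin (n + 1) → ℝ} (h : 1 / 32 ≤ ∑ i, t i) :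
    uS (rt t) = fun l => rotV (uS t) l + -(t 0 * iv (∑ i, t i)) := by
  funext l
  have key : ∑ j with j < l, t (j + 1) = ∑ j with j ≤ l, t j - t 0 := by
    rw [Finset.sum_filter, Finset.sum_filter, Fin.sum_univ_castSucc, Fin.sum_univ_succ,
      if_neg (not_lt.2 (Fin.le_last l)), if_pos (Fin.zero_le l)]
    simp only [Fin.coeSucc_eq_succ, Fin.castSucc_lt_iff_succ_le]
    ring
  show (∑ j with j < l, t (j + 1)) * iv (∑ j, rt t j) = _
  rw [sum_rt, key]
  by_cases hl : l = Fin.last n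
  · have h0 : ∑ i, t i ≠ 0 := by intro h0; rw [h0] at h; norm_num at h
    simp only [rotV, hl, if_true, uS_zero, Fin.le_last, Finset.filter_true, iv_eq h]
    field_simp
    ring
  · have h1 : (Finset.univ.filter fun j => j ≤ l) = Finset.univ.filter fun j => j < l + 1 := by
      refine Finset.filter_congr fun j _ => ?_
      rw [Fin.lt_def, Fin.val_add_one_of_lt (Fin.lt_last_iff_ne_last.2 hl), Fin.le_def]
      omega
    simp only [rotV, hl, if_false, uS, h1]
    ring

theorem Au_rt {β β' : F1 (n + 1)} (ht' : Tr β') (hr : ∀ v l, β' (rotV v) l = β v (l + 1))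
    {t : Fin (n + 1) → ℝ} (h : 1 / 32 ≤ ∑ i, t i) (l : Fin (n + 1)) : Au β' l (rt t) = Au β (l + 1) t := by
  unfold Au
  rw [uS_rt h, ht'.An]
  simp only [An, hr]
  rw [show ∑ j, β (uS t) (j + 1) = ∑ j, β (uS t) j from Equiv.sum_comp (Equiv.addRight (1 : Fin (n + 1))) (β (uS t))]

theorem RR_gr_uC {t : Fin (n + 1) → ℝ} (h : 1 ≤ ∑ i, t i) (l : Fin (n + 1)) :
    RR n (gr (uC l) (rt t)) = gr (uC (l + 1)) t - gr (ta 0) t := by
  have hev : (fun s => uC l (rt s)) =ᶠ[𝓝 t] fun s =>
      (uC (l + 1) s - ta 0 s) + (if l = Fin.last n then 1 else 0) :=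
    (eventually_sum_ge h).mono fun s hs => by
      simp only [uC, ta, uS_rt hs, rotV]
      by_cases hl : l = Fin.last n
      · simp only [hl, if_true, Fin.last_add_one]; push_cast; ring
      · simp only [hl, if_false]; push_cast; ring
  rw [RR_gr (contDiff_uC l), gr_congr hev, gr_add_const, gr_sub (contDiff_uC _) (contDiff_ta _)]

/-- reindex `l ↦ l + 1` (`Equiv.addRight 1`), `∑ Au = 1` at `t` -/
theorem RR_Wf {β β' : F1 (n + 1)} (hs : Sm β) (hd : Dp β) (ht' : Tr β')
    (hr : ∀ v l, β' (rotV v) l = β v (l + 1)) {t : Fin (n + 1) → ℝ} (ht : t ∈ csh (n + 1)) :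
    RR n (Wf β' (rt t)) = Wf β t - gr (ta 0) t := by
  have h1 : 1 ≤ ∑ i, t i := ht.2.1
  have h32 : 1 / 32 ≤ ∑ i, t i := by linarith
  have hsum : ∑ l, Au β l t = 1 := (eventually_sum_Au hs hd ht).self_of_nhds
  simp only [Wf, map_sum, map_smul, RR_gr_uC h1, Au_rt ht' hr h32]
  refine (Equiv.sum_comp (Equiv.addRight (1 : Fin (n + 1)))
    fun l => Au β l t • (gr (uC l) t - gr (ta 0) t)).trans ?_
  simp only [smul_sub, Finset.sum_sub_distrib, ← Finset.sum_smul, hsum, one_smul]

/-- `∑ l, gr (Au β l) t = gr (∑ Au) t = 0` by `eventually_sum_Au` -/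
theorem map_omp_rt {β β' : F1 (n + 1)} (hs : Sm β) (hs' : Sm β') (hd : Dp β) (ht' : Tr β')
    (hr : ∀ v l, β' (rotV v) l = β v (l + 1)) {t : Fin (n + 1) → ℝ} (ht : t ∈ csh (n + 1)) :
    ExteriorAlgebra.map (RR n) (omp β' (rt t)) = omp β t := by
  have h1 : 1 ≤ ∑ i, t i := ht.2.1
  have hA : ∀ l, RR n (gr (Au β' l) (rt t)) = gr (Au β (l + 1)) t := fun l => by
    rw [RR_gr (hs'.Au l)]
    exact gr_congr ((eventually_sum_ge h1).mono fun s hs1 => Au_rt ht' hr hs1 l)
  have h0 : ∑ l, gr (Au β l) t = 0 := by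
    rw [← gr_sum Finset.univ (fun l => hs.Au l) t, gr_congr (eventually_sum_Au hs hd ht), gr_const]
  have h0' : ∑ l, io (gr (Au β l) t) = 0 := by
    simp only [io, ← map_sum, h0, map_zero]
  simp only [omp, map_sum, map_mul, map_io, RR_gr_uC h1, hA]
  refine (Equiv.sum_comp (Equiv.addRight (1 : Fin (n + 1)))
    fun l => io (gr (Au β l) t) * io (gr (uC l) t - gr (ta 0) t)).trans ?_
  simp only [io, map_sub, mul_sub, Finset.sum_sub_distrib, ← Finset.sum_mul] at h0' ⊢
  rw [h0', zero_mul, sub_zero]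

theorem rotb_top (ξ : Ex (n + 1)) :
    top (n + 1) ξ = (-1) ^ n * top (n + 1) (ExteriorAlgebra.map (RR n) ξ) := by
  rw [top_map, det_RR, ← mul_assoc, ← mul_pow, neg_one_mul, neg_neg, one_pow, one_mul]

theorem rotb_hC (t : Fin (n + 1) → ℝ) : RR n (gr (hC (n + 1)) (rt t)) = gr (hC (n + 1)) t := by
  rw [RR_gr contDiff_hC]
  congr 1
  funext s
  simp only [hC, sum_rt]

/-- `← integral_rt`, `top ξ = (-1)^n top (map RR ξ)` (`top_map`, `det_RR`), `mem_csh_or`, `gr_hC`, `integral_sub` -/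
theorem I1_rot {β β' : F1 (n + 1)} (hs : Sm β) (hs' : Sm β') (hd : Dp β) (ht' : Tr β')
    (hr : ∀ v l, β' (rotV v) l = β v (l + 1)) (k : ℕ) :
    I1 k (Wf β') β' = (-1) ^ n * (I1 k (Wf β) β - I1 k (gr (ta 0)) β) := by
  unfold I1
  rw [← integral_rt, ← integral_sub
    ((continuous_I1 hs k hs.continuous_Wf).continuousOn.integrableOn_compact isCompact_box)
    ((continuous_I1 hs k (continuous_gr (contDiff_ta 0))).continuousOn.integrableOn_compact isCompact_box),
    ← integral_const_mul]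
  refine setIntegral_congr_fun measurableSet_box fun t ht => ?_
  rw [rotb_top, map_mul (ExteriorAlgebra.map (RR n)), map_mul (ExteriorAlgebra.map (RR n)), map_pow, map_io,
    map_io, rotb_hC]
  rcases mem_csh_or ht with h | h
  · rw [RR_Wf hs hd ht' hr h, map_omp_rt hs hs' hd ht' hr h]
    simp only [io, map_sub, sub_mul, mul_sub]
  · simp only [h, io_zero, zero_mul, map_zero, sub_zero]

theorem I0_rot {β β' : F1 (n + 1)} (hs : Sm β) (hs' : Sm β') (hd : Dp β) (ht' : Tr β')
    (hr : ∀ v l, β' (rotV v) l = β v (l + 1)) (k : ℕ) (j : Fin (n + 1)) :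
    I0 k (ta j) β' = (-1) ^ n * I0 k (ta (j + 1)) β := by
  unfold I0
  rw [← integral_rt, ← integral_const_mul]
  refine setIntegral_congr_fun measurableSet_box fun t ht => ?_
  have e : ta j (rt t) = ta (j + 1) t := by
    simp only [ta, sum_rt]
    rfl
  rw [rotb_top, map_mul, map_pow, map_io, rotb_hC, e]
  rcases mem_csh_or ht with h | h
  · rw [map_omp_rt hs hs' hd ht' hr h]
    ring
  · simp only [h, io_zero, zero_mul, map_zero, mul_zero]

end Crest.Agent.R192.CW
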