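import Crest.Agent.R192.Iface
import Crest.Agent.R192.CW.Rot
import Crest.Agent.R192.CW.Bound
import Crest.Agent.R192.CW.Pair

/-!
R192/CW/Main: assembly of block CW (Chern-Weil theory on cyclic cells).
-/

set_option autoImplicit false

open MeasureTheory Complex Crest.AlgebraR.L1
open scoped ContDiff Nat

noncomputable section

namespace Crest.Agent.R192
namespace CW
variable {G : Type} [Group G] {Ω : Type} [MeasurableSpace Ω]

/-- average of a functional of the form on a cell -/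
def bar (μ : Measure Ω) (α : Ω → Form G) (n : ℕ) (Ξ : F1 (n + 1) → ℂ) (x : Fin (n + 1) → G) : ℂ :=
  ∫ o, Ξ (α o n x) ∂μ

structure Hy (g : G) (μ : Measure Ω) (α : Ω → Form G) (k : ℕ) : Prop where
  conn : ∀ o, IsConn g (α o)
  int : ∀ n x (Ξ : F1 (n + 1) → ℂ), Integrable (fun o => Ξ (α o n x)) μ
  eqv : ∀ c, Commute c g → ∃ a : Ω → Ω, MeasurePreserving a μ μ ∧
    ∀ o n x, α (a o) n (fun i => c * x i) = α o n x
  dp : ∀ᵐ o ∂μ, ∀ n ≤ 2 * k, ∀ x, Dp (α o n x)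
  bd : ∃ K : ℝ, ∀ᵐ o ∂μ, ∀ n ≤ 2 * k, ∀ x, Bd K (α o n x)

variable {g : G} {μ : Measure Ω} {α : Ω → Form G} {k : ℕ}

theorem Hy.sm (h : Hy g μ α k) (o : Ω) (n : ℕ) (x : Fin (n + 1) → G) : Sm (α o n x) :=
  fun l => (h.conn o).smooth n x l

theorem Hy.tr (h : Hy g μ α k) (o : Ω) (n : ℕ) (x : Fin (n + 1) → G) : Tr (α o n x) :=
  fun v s => (h.conn o).trans n x v s

theorem Hy.fc_eq (h : Hy g μ α k) (o : Ω) (n : ℕ) (a : Fin (n + 2)) (x : Fin (n + 2) → G) :
    fc a (α o (n + 1) x) = α o n (faceX a x) :=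
  funext fun v => funext fun j => ((h.conn o).face n a x v j).symm

theorem Hy.inv (h : Hy g μ α k) (n : ℕ) (Ξ : F1 (n + 1) → ℂ) : Inv g (bar μ α n Ξ) := by
  intro c hc x
  obtain ⟨a, ha, hx⟩ := h.eqv c hc
  have h1 := integral_map (μ := μ) ha.aemeasurable (f := fun o => Ξ (α o n fun i => c * x i))
    (by rw [ha.map_eq]; exact (h.int n _ Ξ).aestronglyMeasurable)
  rw [ha.map_eq] at h1
  simp only [hx] at h1
  exact h1

omit [Group G] in
theorem bdd_bar [IsProbabilityMeasure μ] {n : ℕ} {Ξ : F1 (n + 1) → ℂ} {C : ℝ}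
    (h : ∀ᵐ o ∂μ, ∀ x, ‖Ξ (α o n x)‖ ≤ C) : Bdd (bar μ α n Ξ) :=
  ⟨C, fun x => (norm_integral_le_of_norm_le_const (h.mono fun _ ho => ho x)).trans_eq (by simp)⟩

theorem Hy.bdd [IsProbabilityMeasure μ] (h : Hy g μ α k) {n : ℕ} (hn : n ≤ 2 * k) (j : ℕ) :
    (∀ i, Bdd (bar μ α n (I0 j (ta i)))) ∧ Bdd (bar μ α n fun β => I1 j (Wf β) β) ∧
      Bdd (bar μ α n (I1 j (gr (ta 0)))) := by
  obtain ⟨K, hK⟩ := h.bd
  obtain ⟨C, hC⟩ := crude n j K
  have h1 := (h.dp.and hK).mono fun o ho x => hC _ (h.sm o n x) (h.tr o n x) (ho.1 n hn x) (ho.2 n hn x)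
  exact ⟨fun i => bdd_bar (h1.mono fun o ho x => (ho x).1 _ fun t ht => norm_ta_le ht i),
    bdd_bar (Ξ := fun β => I1 j (Wf β) β) (h1.mono fun o ho x => (ho x).2.1),
    bdd_bar (h1.mono fun o ho x => (ho x).2.2)⟩

theorem Hy.X_succ (h : Hy g μ α k) (n j : ℕ) (x : Fin (n + 2) → G) :
    bar μ α (n + 1) (I0 (j + 1) fun _ => 1) x =
      ∑ a : Fin (n + 2), (-1) ^ a.val * bar μ α n (fun β => I1 j (Wf β) β) (faceX a x) := by
  simp only [bar, I0_succ (h.sm _ _ _), h.fc_eq]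
  rw [integral_finsetSum _ fun a _ => (h.int n (faceX a x) fun β => I1 j (Wf β) β).const_mul _]
  simp only [integral_const_mul]

theorem Hy.Y'_eq (h : Hy g μ α k) (n j : ℕ) (x : Fin (n + 2) → G) :
    bar μ α (n + 1) (I1 j (gr (ta 0))) x =
      ∑ b : Fin (n + 1), (-1) ^ (b.val + 1) * bar μ α n (I0 j (ta 0)) (faceX b.succ x) := by
  simp only [bar, I1_ta (h.sm _ _ _), h.fc_eq]
  rw [integral_finsetSum _ fun b _ => (h.int n (faceX b.succ x) (I0 j (ta 0))).const_mul _]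
  simp only [integral_const_mul]

theorem Hy.Y_rot (h : Hy g μ α k) {n : ℕ} (hn : n ≤ 2 * k) (j : ℕ) (x : Fin (n + 1) → G) :
    bar μ α n (fun β => I1 j (Wf β) β) (rotX g x) =
      (-1) ^ n * (bar μ α n (fun β => I1 j (Wf β) β) x - bar μ α n (I1 j (gr (ta 0))) x) := by
  simp only [bar]
  rw [← integral_sub (h.int n x fun β => I1 j (Wf β) β) (h.int n x _), ← integral_const_mul]
  refine integral_congr_ae (h.dp.mono fun o ho => ?_)
  exact I1_rot (h.sm o n x) (h.sm o n _) (ho n hn x) (h.tr o n _) ((h.conn o).rot n x) j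

theorem Hy.Z_rot (h : Hy g μ α k) {n : ℕ} (hn : n ≤ 2 * k) (j : ℕ) (i : Fin (n + 1)) (x : Fin (n + 1) → G) :
    bar μ α n (I0 j (ta i)) (rotX g x) = (-1) ^ n * bar μ α n (I0 j (ta (i + 1))) x := by
  simp only [bar]
  rw [← integral_const_mul]
  refine integral_congr_ae (h.dp.mono fun o ho => ?_)
  exact I0_rot (h.sm o n x) (h.sm o n _) (ho n hn x) (h.tr o n _) ((h.conn o).rot n x) j i

theorem Hy.sum_Z (h : Hy g μ α k) (n j : ℕ) (x : Fin (n + 1) → G) :
    bar μ α n (I0 j fun _ => 1) x = ∑ i, bar μ α n (I0 j (ta i)) x := by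
  simp only [bar]
  rw [← integral_finsetSum _ fun i _ => h.int n x (I0 j (ta i))]
  simp only [sum_I0_ta (h.sm _ _ _)]

theorem Bdd.comp {X Y : Type} {F : X → ℂ} (h : Bdd F) (f : Y → X) : Bdd fun y => F (f y) :=
  let ⟨C, hC⟩ := h
  ⟨C, fun y => hC (f y)⟩

theorem Bdd.const_mul {X : Type} {F : X → ℂ} (h : Bdd F) (c : ℂ) : Bdd fun x => c * F x :=
  let ⟨C, hC⟩ := h
  ⟨‖c‖ * C, fun x => (norm_mul _ _).trans_le (mul_le_mul_of_nonneg_left (hC x) (norm_nonneg _))⟩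

variable {q : ℕ} {e : Fin q → Fin q → G → ℂ}

theorem Hy.pX [IsProbabilityMeasure μ] (h : Hy g μ α k) (he : IsL1IdempotentMatrix e) {n : ℕ} (hn : n ≤ 2 * k)
    (j : ℕ) : pair g e (bar μ α (n + 1) (I0 (j + 1) fun _ => 1)) =
      (∑ a : Fin (n + 2), (-1) ^ a.val) * pair g e (bar μ α n fun β => I1 j (Wf β) β) := by
  have bY := (h.bdd hn j).2.1
  rw [funext (h.X_succ n j), pair_sum he _ fun a => (bY.comp (faceX a)).const_mul _, Finset.sum_mul]
  refine Finset.sum_congr rfl fun a _ => ?_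
  rw [pair_const_mul, pair_face he _ (h.inv _ _) bY]

theorem Hy.pY [IsProbabilityMeasure μ] (h : Hy g μ α k) (he : IsL1IdempotentMatrix e) {n : ℕ} (hn : n ≤ 2 * k)
    (j : ℕ) : pair g e (bar μ α n fun β => I1 j (Wf β) β) =
      (-1) ^ n * (pair g e (bar μ α n fun β => I1 j (Wf β) β) - pair g e (bar μ α n (I1 j (gr (ta 0))))) := by
  obtain ⟨-, bY, bY'⟩ := h.bdd hn j
  rw [← pair_sub he bY bY', ← pair_const_mul, ← funext (h.Y_rot hn j), pair_rot (h.inv _ _)]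

theorem Hy.pY' [IsProbabilityMeasure μ] (h : Hy g μ α k) (he : IsL1IdempotentMatrix e) {n : ℕ} (hn : n ≤ 2 * k)
    (j : ℕ) : pair g e (bar μ α (n + 1) (I1 j (gr (ta 0)))) =
      (∑ b : Fin (n + 1), (-1) ^ (b.val + 1)) * pair g e (bar μ α n (I0 j (ta 0))) := by
  have bZ := (h.bdd hn j).1 0
  rw [funext (h.Y'_eq n j), pair_sum he _ fun b : Fin (n + 1) => (bZ.comp (faceX b.succ)).const_mul _,
    Finset.sum_mul]
  refine Finset.sum_congr rfl fun a _ => ?_
  rw [pair_const_mul, pair_face he _ (h.inv _ _) bZ]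

theorem Hy.pZ [IsProbabilityMeasure μ] (h : Hy g μ α k) (he : IsL1IdempotentMatrix e) {n : ℕ} (hn : n ≤ 2 * k)
    (hev : Even n) (j : ℕ) : pair g e (bar μ α n (I0 j fun _ => 1)) =
      (n + 1) * pair g e (bar μ α n (I0 j (ta 0))) := by
  have e4 : ∀ i : Fin (n + 1), pair g e (bar μ α n (I0 j (ta (i + 1)))) =
      pair g e (bar μ α n (I0 j (ta i))) := fun i => by
    rw [← pair_rot (h.inv n (I0 j (ta i))), funext (h.Z_rot hn j i), pair_const_mul, hev.neg_one_pow, one_mul]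
  have e5 : ∀ i : Fin (n + 1), pair g e (bar μ α n (I0 j (ta i))) =
      pair g e (bar μ α n (I0 j (ta 0))) := fun i => by
    induction i using Fin.induction with
    | zero => rfl
    | succ i ih => rw [← Fin.coeSucc_eq_succ, e4, ih]
  rw [funext (h.sum_Z n j), pair_sum he _ (h.bdd hn j).1, Finset.sum_congr rfl fun i _ => e5 i]
  simp

theorem Hy.step [IsProbabilityMeasure μ] (h : Hy g μ α k) (he : IsL1IdempotentMatrix e) {j : ℕ} (hj : j < k) :
    pair g e (bar μ α (2 * j) (I0 j fun _ => 1)) =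
      -(2 * (2 * j + 1)) * pair g e (bar μ α (2 * j + 1 + 1) (I0 (j + 1) fun _ => 1)) := by
  have e1 := h.pX he (n := 2 * j + 1) (by omega) j
  have e2 := h.pY he (n := 2 * j + 1) (by omega) j
  have e3 := h.pY' he (n := 2 * j) (by omega) j
  have e6 := h.pZ he (n := 2 * j) (by omega) (even_two_mul j) j
  have s1 : ∑ a : Fin (2 * j + 1 + 2), (-1 : ℂ) ^ a.val = 1 := by
    rw [Fin.sum_neg_one_pow, if_neg (by rw [Nat.not_even_iff_odd]; exact ⟨j + 1, by ring⟩)]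
  have s2 : ∑ b : Fin (2 * j + 1), (-1 : ℂ) ^ (b.val + 1) = -1 := by
    simp only [pow_succ]
    rw [← Finset.sum_mul, Fin.sum_neg_one_pow, if_neg (by rw [Nat.not_even_iff_odd]; exact ⟨j, rfl⟩), one_mul]
  rw [s1] at e1
  rw [s2] at e3
  rw [(odd_two_mul_add_one j).neg_one_pow] at e2
  push_cast at e6
  linear_combination e6 + 2 * (2 * (j : ℂ) + 1) * e1 + (2 * (j : ℂ) + 1) * e3 + (2 * (j : ℂ) + 1) * e2

theorem Hy.iter [IsProbabilityMeasure μ] (h : Hy g μ α k) (he : IsL1IdempotentMatrix e) {j : ℕ} (hj : j ≤ k) :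
    ‖classTrace e (ConjClasses.mk g).carrier‖ =
      ((2 * j)! / j ! : ℝ) * ‖pair g e (bar μ α (2 * j) (I0 j fun _ => 1))‖ := by
  induction j with
  | zero =>
    have : bar μ α (2 * 0) (I0 0 fun _ => 1) = fun _ : Fin 1 → G => 1 := by
      funext x
      have : ∀ o, I0 0 (fun _ => 1) (α o (2 * 0) x) = 1 := fun o => I0_zero _
      simp [bar, this]
    rw [this, pair_one]
    simp
  | succ j ih =>
    rw [ih (by omega), h.step he (by omega), norm_mul, ← mul_assoc]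
    have h1 : ‖(-(2 * (2 * j + 1)) : ℂ)‖ = 2 * (2 * j + 1) := by
      rw [norm_neg]
      have : (2 * (2 * j + 1) : ℂ) = ((2 * (2 * j + 1) : ℕ) : ℂ) := by push_cast; ring
      rw [this, Complex.norm_natCast]
      push_cast
      ring
    have h2 : ((2 * j)! / j ! : ℝ) * (2 * (2 * j + 1)) = (2 * (j + 1))! / (j + 1)! := by
      rw [show 2 * (j + 1) = 2 * j + 1 + 1 from rfl, Nat.factorial_succ, Nat.factorial_succ, Nat.factorial_succ]
      have : (j ! : ℝ) ≠ 0 := by positivity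
      push_cast
      field_simp
      ring
    rw [h1, h2]
    rfl

end CW

open CW in
theorem stCW : StCW := by
  intro G _ g q e he W hW hs Ω _ μ _ k α h1 h2 h3 h4 h5 Ψ hΨ h0 h6
  have h : Hy g μ α k := ⟨h1, h2, h3, h4, h5⟩
  have hI : 0 ≤ ∫ t in shell (2 * k + 1), Ψ t := integral_nonneg h0
  have hT : 0 ≤ Th := zero_le_one.trans one_le_Th
  have h7 := norm_pair_le (g := g) hW hs (F := bar μ α (2 * k) (I0 k fun _ => 1))
    (C := 16 ^ (k + 1) * Th * ∫ t in shell (2 * k + 1), Ψ t) (by positivity) fun x => by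
      refine (norm_integral_le_of_norm_le_const ((h.dp.and h6).mono fun o ho => ?_)).trans_eq
        (by rw [probReal_univ, mul_one])
      exact norm_I0_le (h.sm o _ x) (h.tr o _ x) (ho.1 _ le_rfl x) k hΨ h0
        (Finset.prod_nonneg fun l _ => hW _) (ho.2 x)
  rw [h.iter he le_rfl]
  refine (mul_le_mul_of_nonneg_left h7 (by positivity)).trans_eq ?_
  ring

end Crest.Agent.R192
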