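import Crest.Agent.R192.CW.Basic

/-!
R192/CW/Piola: products of exact one-forms are closed; Stokes' formula on the box.  Statements FROZEN (owner helper62).
-/

set_option autoImplicit false

open MeasureTheory Complex Filter Topology
open scoped ContDiff

noncomputable section

namespace Crest.Agent.R192.CW
variable {N n : ℕ}

theorem Cl.sum {ι : Type*} (S : Finset ι) {ξ : ι → (Fin N → ℝ) → Ex N} (h : ∀ i, Cl (ξ i)) :
    Cl fun t => ∑ i ∈ S, ξ i t := by
  classical
  induction S using Finset.induction_on with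
  | empty => simpa using Cl.zero
  | insert i S hi ih => simpa only [Finset.sum_insert hi] using (h i).add ih

/-- induction on `k` with `pow_succ'`, `Finset.sum_mul`, `mul_assoc` -/
theorem Cl.omp_pow {β : F1 N} (hβ : Sm β) (k : ℕ) : Cl fun t => omp β t ^ k := by
  induction k with
  | zero => simpa using Cl.one
  | succ k ih =>
    have e : ∀ t, omp β t ^ (k + 1) =
        ∑ l, io (gr (Au β l) t) * (io (gr (uC l) t) * omp β t ^ k) := fun t => by
      rw [pow_succ']
      conv_lhs => arg 1; rw [omp]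
      simp only [Finset.sum_mul, mul_assoc]
    simp only [e]
    exact Cl.sum _ fun l => Cl.mul (hβ.Au l) (Cl.mul (contDiff_uC l) ih)

theorem pioa_exp (φ : Ex N →ₗ[ℂ] ℂ) (v : Fin N → ℂ) (ξ : Ex N) :
    φ (io v * ξ) = ∑ b, v b * φ (io (Pi.single b 1) * ξ) := by
  conv_lhs => rw [io_eq_sum v]
  simp only [Finset.sum_mul, smul_mul_assoc, map_sum, map_smul, smul_eq_mul]

/-- induction generalizing `φ`; `io_eq_sum`, use `φ ∘ₗ LinearMap.mulLeft ℂ (io (Pi.single b 1))` -/
theorem Cl.smooth {ξ : (Fin N → ℝ) → Ex N} (h : Cl ξ) (φ : Ex N →ₗ[ℂ] ℂ) :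
    ContDiff ℝ ∞ fun t => φ (ξ t) := by
  induction h generalizing φ with
  | zero => exact contDiff_const
  | one => exact contDiff_const
  | add _ _ ih ih' => simpa only [map_add] using (ih φ).add (ih' φ)
  | @mul f hf ξ _ ih =>
    have e : ∀ t, φ (io (gr f t) * ξ t) = ∑ b, pd b f t * φ (io (Pi.single b 1) * ξ t) :=
      fun t => pioa_exp φ _ _
    simp only [e]
    exact ContDiff.sum fun b _ => (contDiff_pd hf b).mul (ih (φ ∘ₗ LinearMap.mulLeft ℂ (io (Pi.single b 1))))

/-- Piola identity.  Induction generalizing `φ`: `φ (e_a * (io (gr f) * ξ)) = ∑_b ∂_b f φ (e_a e_b ξ)`; the terms with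
`∂_a ∂_b f` cancel (`pd_comm` against `io_swap`: the double sum `S` satisfies `S = -S`), the others vanish by the
induction hypothesis for `φ ∘ (e_b * ·)`. -/
theorem Cl.div {ξ : (Fin N → ℝ) → Ex N} (h : Cl ξ) (φ : Ex N →ₗ[ℂ] ℂ) (t : Fin N → ℝ) :
    ∑ a, pd a (fun s => φ (io (Pi.single a 1) * ξ s)) t = 0 := by
  induction h generalizing φ with
  | zero => exact Finset.sum_eq_zero fun a _ => congrFun (gr_const _ t) a
  | one => exact Finset.sum_eq_zero fun a _ => congrFun (gr_const _ t) a
  | add h h' ih ih' =>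
    rw [← add_zero (0 : ℂ)]
    nth_rewrite 1 [← ih φ]
    rw [← ih' φ, ← Finset.sum_add_distrib]
    refine Finset.sum_congr rfl fun a _ => ?_
    simp only [mul_add, map_add]
    exact congrFun (gr_add (h.smooth (φ ∘ₗ LinearMap.mulLeft ℂ (io (Pi.single a 1))))
      (h'.smooth (φ ∘ₗ LinearMap.mulLeft ℂ (io (Pi.single a 1)))) t) a
  | @mul f hf ξ h ih =>
    set P : Fin N → Fin N → Fn N := fun a b s => φ (io (Pi.single a 1) * (io (Pi.single b 1) * ξ s)) with hP
    have hs : ∀ a b, ContDiff ℝ ∞ (P a b) := fun a b =>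
      h.smooth ((φ ∘ₗ LinearMap.mulLeft ℂ (io (Pi.single a 1))) ∘ₗ LinearMap.mulLeft ℂ (io (Pi.single b 1)))
    have sw : ∀ a b s, P a b s = -P b a s := fun a b s => by
      simp only [hP]
      rw [← mul_assoc, io_swap, neg_mul, map_neg, mul_assoc]
    have e : ∀ a, pd a (fun s => φ (io (Pi.single a 1) * (io (gr f s) * ξ s))) t =
        ∑ b, (pd b f t * pd a (P a b) t + P a b t * pd a (pd b f) t) := fun a => by
      have e1 : (fun s => φ (io (Pi.single a 1) * (io (gr f s) * ξ s))) = fun s => ∑ b, pd b f s * P a b s :=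
        funext fun s => pioa_exp (φ ∘ₗ LinearMap.mulLeft ℂ (io (Pi.single a 1))) _ _
      rw [e1]
      refine (congrFun (gr_sum Finset.univ (f := fun b s => pd b f s * P a b s)
        (fun b => (contDiff_pd hf b).mul (hs a b)) t) a).trans ?_
      rw [Finset.sum_apply]
      exact Finset.sum_congr rfl fun b _ => congrFun (gr_mul (contDiff_pd hf b) (hs a b) t) a
    simp only [e, Finset.sum_add_distrib]
    have h1 : ∑ a, ∑ b, pd b f t * pd a (P a b) t = 0 := by
      rw [Finset.sum_comm]
      refine Finset.sum_eq_zero fun b _ => ?_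
      rw [← Finset.mul_sum]
      refine mul_eq_zero_of_right _ ((Finset.sum_congr rfl fun a _ => ?_).trans
        (ih (-(φ ∘ₗ LinearMap.mulLeft ℂ (io (Pi.single b 1))))))
      exact congrArg (fun g => pd a g t) (funext fun s => sw a b s)
    have h2 : ∑ a, ∑ b, P a b t * pd a (pd b f) t = -∑ a, ∑ b, P a b t * pd a (pd b f) t := by
      conv_lhs => rw [Finset.sum_comm]
      simp only [← Finset.sum_neg_distrib]
      refine Finset.sum_congr rfl fun a _ => Finset.sum_congr rfl fun b _ => ?_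
      rw [sw b a, pd_comm hf b a, neg_mul]
    rw [h1, zero_add]
    exact self_eq_neg.1 h2

theorem Cl.continuous_mul {ξ : (Fin N → ℝ) → Ex N} (h : Cl ξ) (φ : Ex N →ₗ[ℂ] ℂ) {w : F1 N}
    (hw : Continuous w) : Continuous fun t => φ (io (w t) * ξ t) := by
  have e : ∀ t, φ (io (w t) * ξ t) = ∑ b, w t b * φ (io (Pi.single b 1) * ξ t) := fun t => pioa_exp φ _ _
  simp only [e]
  exact continuous_finsetSum _ fun b _ => ((continuous_apply b).comp hw).mul
    (h.smooth (φ ∘ₗ LinearMap.mulLeft ℂ (io (Pi.single b 1)))).continuous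

theorem continuous_I0 {β : F1 N} (hβ : Sm β) (k : ℕ) :
    Continuous fun t => top N (io (gr (hC N) t) * omp β t ^ k) := by
  exact (Cl.omp_pow hβ k).continuous_mul (top N) (continuous_gr contDiff_hC)

theorem continuous_I1 {β : F1 N} (hβ : Sm β) (k : ℕ) {w : F1 N} (hw : Continuous w) :
    Continuous fun t => top N (io (gr (hC N) t) * (io (w t) * omp β t ^ k)) := by
  have e : ∀ t, top N (io (gr (hC N) t) * (io (w t) * omp β t ^ k)) =
      -top N (io (w t) * (io (gr (hC N) t) * omp β t ^ k)) := fun t => by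
    rw [← mul_assoc, io_swap, neg_mul, map_neg, mul_assoc]
  simp only [e]
  exact ((Cl.mul contDiff_hC (Cl.omp_pow hβ k)).continuous_mul (top N) hw).neg

/-- Put `η = io (gr hC) * ξ` (in `Cl`), `F a = f * top (e_a * η)`.  Then `∑ a, pd a (F a) = top (io (gr f) * η)`
(`gr_mul`, `Cl.div`, `io_eq_sum`) `= - top (io (gr hC) * (io (gr f) * ξ))` (`io_swap`).  Apply
`MeasureTheory.integral_divergence_of_hasFDerivAt_off_countable'` on `Icc 0 (fun _ => 3)` with `s = ∅`: the front faces
vanish (`∑ t ≥ 3`, `gr_hC_eq_zero`, `Fin.sum_univ_succAbove`), the back faces are given by `top_single_mul`. -/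
theorem stokes {f : Fn (n + 1)} (hf : ContDiff ℝ ∞ f) {ξ : (Fin (n + 1) → ℝ) → Ex (n + 1)} (h : Cl ξ) :
    ∫ t in box (n + 1), top (n + 1) (io (gr (hC (n + 1)) t) * (io (gr f t) * ξ t)) =
      ∑ a : Fin (n + 1), (-1) ^ a.val * ∫ t in box n, f (ins a t) *
        top n (ExteriorAlgebra.map (res a) (io (gr (hC (n + 1)) (ins a t)) * ξ (ins a t))) := by
  have hη : Cl fun t => io (gr (hC (n + 1)) t) * ξ t := Cl.mul contDiff_hC h
  set η : (Fin (n + 1) → ℝ) → Ex (n + 1) := fun t => io (gr (hC (n + 1)) t) * ξ t with hηd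
  have hg : ∀ a : Fin (n + 1), ContDiff ℝ ∞ fun t => top (n + 1) (io (Pi.single a 1) * η t) := fun a =>
    hη.smooth (top (n + 1) ∘ₗ LinearMap.mulLeft ℂ (io (Pi.single a 1)))
  have hF : ∀ a : Fin (n + 1), ContDiff ℝ ∞ fun t => f t * top (n + 1) (io (Pi.single a 1) * η t) := fun a =>
    hf.mul (hg a)
  have hdiv : ∀ t, ∑ a : Fin (n + 1), pd a (fun t => f t * top (n + 1) (io (Pi.single a 1) * η t)) t =
      -top (n + 1) (io (gr (hC (n + 1)) t) * (io (gr f t) * ξ t)) := fun t => by
    have h1 : ∀ a : Fin (n + 1), pd a (fun t => f t * top (n + 1) (io (Pi.single a 1) * η t)) t =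
        f t * pd a (fun t => top (n + 1) (io (Pi.single a 1) * η t)) t +
          top (n + 1) (io (Pi.single a 1) * η t) * gr f t a := fun a => congrFun (gr_mul hf (hg a) t) a
    rw [Finset.sum_congr rfl fun a _ => h1 a, Finset.sum_add_distrib, ← Finset.mul_sum, hη.div, mul_zero, zero_add,
      ← mul_assoc, io_swap, neg_mul, map_neg, neg_neg, mul_assoc, io_eq_sum (gr f t), Finset.sum_mul, map_sum]
    refine Finset.sum_congr rfl fun a _ => ?_
    rw [smul_mul_assoc, map_smul, smul_eq_mul, mul_comm]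
  have hS := integral_divergence_of_hasFDerivAt_off_countable' (0 : Fin (n + 1) → ℝ) (fun _ => 3)
    (fun _ => by norm_num) (fun a t => f t * top (n + 1) (io (Pi.single a 1) * η t))
    (fun a => fderiv ℝ fun t => f t * top (n + 1) (io (Pi.single a 1) * η t)) ∅ Set.countable_empty
    (fun a => (hF a).continuous.continuousOn)
    (fun t _ a => ((hF a).differentiable (by simp) t).hasFDerivAt)
    ((continuous_finsetSum _ fun a _ => (contDiff_pd (hF a) a).continuous).continuousOn.integrableOn_compact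
      isCompact_Icc)
  have hL : ∫ t in box (n + 1), -top (n + 1) (io (gr (hC (n + 1)) t) * (io (gr f t) * ξ t)) = _ :=
    (integral_congr_ae (.of_forall fun t => (hdiv t).symm)).trans hS
  rw [integral_neg, neg_eq_iff_eq_neg, ← Finset.sum_neg_distrib] at hL
  rw [hL]
  refine Finset.sum_congr rfl fun a _ => ?_
  have h0 : ∫ x in Set.Icc ((0 : Fin (n + 1) → ℝ) ∘ a.succAbove) ((fun _ => 3) ∘ a.succAbove),
      f (a.insertNth 3 x) * top (n + 1) (io (Pi.single a 1) * η (a.insertNth 3 x)) = 0 := by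
    refine setIntegral_eq_zero_of_forall_eq_zero fun x hx => ?_
    have h2 : 2 < ∑ i, (a.insertNth 3 x : Fin (n + 1) → ℝ) i := by
      rw [Fin.sum_univ_succAbove _ a]
      simp only [Fin.insertNth_apply_same, Fin.insertNth_apply_succAbove]
      have : 0 ≤ ∑ i, x i := Finset.sum_nonneg fun i _ => hx.1 i
      linarith
    simp only [hηd, gr_hC_eq_zero (Or.inr h2), io_zero, zero_mul, mul_zero, map_zero]
  rw [h0, zero_sub, neg_neg, ← integral_const_mul]
  refine integral_congr_ae (.of_forall fun x => ?_)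
  simp only [top_single_mul]
  rw [mul_left_comm]
  rfl

end Crest.Agent.R192.CW
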